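import Mathlib

/-!
# P066: the algebra of the rank two state space

Abstract relations between the operators of adding a vertex (`dp`), of closing the oldest vertex (`dm`, `s`)
and the Hecke type operator `T`, and the closed formulas they force.
-/

namespace P066

open Finset

variable {A M1 M2 : Type*} [CommRing A] [AddCommGroup M1] [Module A M1]
  [AddCommGroup M2] [Module A M2]

/-- the `q`-integer `1 + q + ... + q^(m-1)` -/
def qn (q : A) (m : ℕ) : A := ∑ i ∈ range m, q ^ i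

theorem qn_zero (q : A) : qn q 0 = 0 := by simp [qn]
theorem qn_one (q : A) : qn q 1 = 1 := by simp [qn]

theorem qn_succ (q : A) (m : ℕ) : qn q (m + 1) = q * qn q m + 1 := by
  unfold qn
  rw [Finset.sum_range_succ', Finset.mul_sum]
  congr 1
  · exact Finset.sum_congr rfl (fun i _ => by ring)
  · simp

theorem qn_add (q : A) (m k : ℕ) : qn q (m + k) = qn q m + q ^ m * qn q k := by
  induction k with
  | zero => simp [qn_zero]
  | succ k ih =>
    rw [← add_assoc]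
    unfold qn at *
    rw [Finset.sum_range_succ, ih, Finset.sum_range_succ]
    ring

/-- The operators and their relations. -/
structure Dat (A M1 M2 : Type*) [CommRing A] [AddCommGroup M1] [Module A M1]
    [AddCommGroup M2] [Module A M2] where
  q : A
  e : ℕ → A
  e0 : e 0 = 1
  r1 : M1 →ₗ[A] M1
  r2 : M2 →ₗ[A] M2
  dp : M1 →ₗ[A] M2
  dm : M2 →ₗ[A] M1
  T : M2 →ₗ[A] M2
  s : M1 →ₗ[A] A
  U : ℕ → M1
  quad : ∀ F, T (T F) = (q - 1) • T F + q • F
  comm : ∀ F, T (r2 (r2 F)) = r2 (r2 (T F))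
  dmr : ∀ F, dm (r2 F) = r1 (dm (T F))
  Tdr : ∀ G, T (dp (r1 G)) = r2 (dp G)
  T0 : T (dp (U 0)) = q • dp (U 0)
  U1 : ∀ a, U (a + 1) = r1 (U a) + e (a + 1) • U 0
  sU : ∀ a, s (U a) = qn q (a + 1) * e (a + 1)
  B1 : ∀ G, dm (dp G) = r1 G + s G • U 0

namespace Dat

variable (D : Dat A M1 M2)

theorem r1U (a : ℕ) : D.r1 (D.U a) = D.U (a + 1) - D.e (a + 1) • D.U 0 := by
  rw [D.U1 a]; abel

theorem BU (a : ℕ) : D.dm (D.dp (D.U a)) =
    D.U (a + 1) + ((qn D.q (a + 1) - 1) * D.e (a + 1)) • D.U 0 := by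
  rw [D.B1, D.r1U, D.sU]; module

/-- the symmetric element `G_m` -/
def G (m : ℕ) : M2 := D.r2 (D.dp (D.U m)) + D.dp (D.U (m + 1))

theorem TdU (m : ℕ) : D.T (D.dp (D.U (m + 1))) =
    D.r2 (D.dp (D.U m)) + (D.q * D.e (m + 1)) • D.dp (D.U 0) := by
  rw [D.U1 m, map_add, map_add, D.Tdr, map_smul, map_smul, D.T0]; module

theorem TrdU (m : ℕ) : D.T (D.r2 (D.dp (D.U m))) =
    (D.q - 1) • D.r2 (D.dp (D.U m)) + D.q • D.dp (D.U (m + 1))
      - (D.q * D.e (m + 1)) • D.dp (D.U 0) := by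
  have h := D.quad (D.dp (D.U (m + 1)))
  rw [D.TdU m, map_add, map_smul, D.T0] at h
  have h2 : D.T (D.r2 (D.dp (D.U m))) = (D.q - 1) • (D.r2 (D.dp (D.U m))
      + (D.q * D.e (m + 1)) • D.dp (D.U 0)) + D.q • D.dp (D.U (m + 1))
      - (D.q * D.e (m + 1)) • D.q • D.dp (D.U 0) := by
    rw [← h]; abel
  rw [h2]; module

theorem TG (m : ℕ) : D.T (D.G m) = D.q • D.G m := by
  unfold G
  rw [map_add, D.TdU, D.TrdU]; module

/-- dense family -/
def DD : ℕ → M2
  | 0 => D.dp (D.U 0)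
  | (i + 1) => D.r2 (DD i) + D.dp (D.U (i + 1))

theorem TDD (i : ℕ) : D.T (D.DD i) = D.q • D.DD i := by
  induction i using Nat.twoStepInduction with
  | zero => simpa [DD] using D.T0
  | one => simpa [DD, G] using D.TG 0
  | more n h1 _ =>
    have h3 : D.DD (n + 2) = D.r2 (D.r2 (D.DD n)) + D.G (n + 1) := by
      simp only [DD, G, map_add]; abel
    rw [h3, map_add, D.comm, h1, D.TG]
    simp only [map_smul]; module

theorem dmDD (i : ℕ) : D.dm (D.DD i) = qn D.q (i + 1) • D.U (i + 1) := by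
  induction i with
  | zero =>
    simp only [DD]; rw [D.BU]; simp [qn_one]
  | succ i ih =>
    simp only [DD]
    rw [map_add, D.dmr, D.TDD, map_smul, map_smul, ih, map_smul, D.r1U, D.BU]
    rw [qn_succ D.q (i + 1)]
    module

/-- `B` on the dense family: `B D_i = D_{i+1} + q [i] dp U_{i+1}`. -/
theorem BDD (i : ℕ) : D.r2 (D.DD i) + D.dp (D.dm (D.DD i)) =
    D.DD (i + 1) + (D.q * qn D.q i) • D.dp (D.U (i + 1)) := by
  rw [D.dmDD, map_smul, qn_succ]
  simp only [DD]; module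

/-! ### the other families -/

/-- `Y` for even index `2 j` -/
def Ye (a j : ℕ) : M1 :=
  ∑ l ∈ range (j + 1), (D.q ^ l * D.e l) • D.U (a + 2 * j + 1 - l)
  + ∑ l ∈ range (j + 1), (D.q ^ (2 * j + 1 - l) * D.e (a + 2 * j + 1 - l)) • D.U l

/-- `Y` for odd index `2 j + 1` -/
def Yo (a j : ℕ) : M1 :=
  ∑ l ∈ range (j + 2), (D.q ^ l * D.e l) • D.U (a + 2 * j + 2 - l)
  + ∑ l ∈ range (j + 1), (D.q ^ (2 * j + 2 - l) * D.e (a + 2 * j + 2 - l)) • D.U l

/-- `dm X` for even index -/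
def Ee (a j : ℕ) : M1 :=
  ∑ l ∈ range (j + 1), (D.q ^ l * qn D.q (2 * j + 1 - l) * D.e l) • D.U (a + 2 * j + 1 - l)
  + ∑ l ∈ range (j + 1),
    (D.q ^ (2 * j + 1 - l) * qn D.q (a + l) * D.e (a + 2 * j + 1 - l)) • D.U l

/-- `dm X` for odd index -/
def Eo (a j : ℕ) : M1 :=
  ∑ l ∈ range (j + 2), (D.q ^ l * qn D.q (2 * j + 2 - l) * D.e l) • D.U (a + 2 * j + 2 - l)
  + ∑ l ∈ range (j + 1),
    (D.q ^ (2 * j + 2 - l) * qn D.q (a + l) * D.e (a + 2 * j + 2 - l)) • D.U l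

/-- even elements -/
def Xe (a : ℕ) : ℕ → M2
  | 0 => D.dp (D.U a)
  | (j + 1) => D.r2 (D.r2 (Xe a j) + D.dp (D.Ye a j)) + D.dp (D.Yo a j)

/-- odd elements -/
def Xo (a j : ℕ) : M2 := D.r2 (D.Xe a j) + D.dp (D.Ye a j)

/-- odd elements, shifted -/
def Xom (a : ℕ) : ℕ → M2
  | 0 => 0
  | (j + 1) => D.Xo a j

theorem Xe_succ (a j : ℕ) : D.Xe a (j + 1) = D.r2 (D.Xo a j) + D.dp (D.Yo a j) := rfl

/-- the symmetric increments -/
def g (a j : ℕ) : M2 :=
  ∑ l ∈ range (j + 1), (D.q ^ l * D.e l) • D.G (a + 2 * j - l)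
  + ∑ l ∈ range j, (D.q ^ (2 * j - l) * D.e (a + 2 * j - l)) • D.G l
  + (D.q ^ (2 * j + 1) * D.e (a + 2 * j + 1)) • D.dp (D.U 0)

theorem Tg (a j : ℕ) : D.T (D.g a j) = D.q • D.g a j := by
  unfold g
  simp only [map_add, map_sum, map_smul, D.TG, D.T0, smul_add, Finset.smul_sum]
  congr 1
  · congr 1
    · exact Finset.sum_congr rfl (fun l _ => smul_comm _ _ _)
    · exact Finset.sum_congr rfl (fun l _ => smul_comm _ _ _)
  · exact smul_comm _ _ _

theorem Xo_zero (a : ℕ) : D.Xo a 0 = D.g a 0 := by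
  simp [Xo, Xe, Ye, g, G, D.e0, add_assoc]

theorem Xo_succ (a j : ℕ) : D.Xo a (j + 1) = D.r2 (D.r2 (D.Xo a j)) + D.g a (j + 1) := by
  have h : D.r2 (D.dp (D.Yo a j)) + D.dp (D.Ye a (j + 1)) = D.g a (j + 1) := by
    unfold Yo Ye g G
    simp only [map_add, map_sum, map_smul, smul_add, Finset.sum_add_distrib]
    rw [show j + 1 + 1 = j + 2 by ring, show 2 * (j + 1) = 2 * j + 2 by ring]
    rw [Finset.sum_range_succ' (fun l => (D.q ^ (2 * j + 2 + 1 - l) *
      D.e (a + (2 * j + 2) + 1 - l)) • D.dp (D.U l))]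
    have h1 : ∑ l ∈ range (j + 2), (D.q ^ l * D.e l) • D.dp (D.U (a + (2 * j + 2) + 1 - l)) =
        ∑ l ∈ range (j + 2), (D.q ^ l * D.e l) • D.dp (D.U (a + (2 * j + 2) - l + 1)) := by
      refine Finset.sum_congr rfl (fun l hl => ?_)
      have := Finset.mem_range.1 hl
      rw [show a + (2 * j + 2) + 1 - l = a + (2 * j + 2) - l + 1 by omega]
    have h2 : ∑ l ∈ range (j + 1), (D.q ^ (2 * j + 2 + 1 - (l + 1)) *
        D.e (a + (2 * j + 2) + 1 - (l + 1))) • D.dp (D.U (l + 1)) =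
        ∑ l ∈ range (j + 1), (D.q ^ (2 * j + 2 - l) * D.e (a + (2 * j + 2) - l)) •
          D.dp (D.U (l + 1)) := by
      refine Finset.sum_congr rfl (fun l hl => ?_)
      rw [show 2 * j + 2 + 1 - (l + 1) = 2 * j + 2 - l by omega,
        show a + (2 * j + 2) + 1 - (l + 1) = a + (2 * j + 2) - l by omega]
    rw [h1, h2]
    simp only [Nat.sub_zero, show a + 2 * j + 2 = a + (2 * j + 2) by ring]
    abel
  rw [← h]
  simp only [Xo, Xe_succ, map_add]
  abel

theorem TXo (a j : ℕ) : D.T (D.Xo a j) = D.q • D.Xo a j := by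
  induction j with
  | zero => rw [D.Xo_zero, D.Tg]
  | succ j ih => rw [D.Xo_succ, map_add, D.comm, ih, D.Tg]; simp only [map_smul, smul_add]

/-- the increment of the even family -/
theorem Xe_step (a j : ℕ) : D.Xe a (j + 1) = D.r2 (D.r2 (D.Xe a j)) +
    (∑ l ∈ range (j + 1), (D.q ^ l * D.e l) • D.G (a + 2 * j + 1 - l)
    + (D.q ^ (j + 1) * D.e (j + 1)) • D.dp (D.U (a + j + 1))
    + ∑ l ∈ range j, (D.q ^ (2 * j + 1 - l) * D.e (a + 2 * j + 1 - l)) • D.G l
    + (D.q ^ (j + 1) * D.e (a + j + 1)) • D.r2 (D.dp (D.U j))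
    + (D.q ^ (2 * j + 2) * D.e (a + 2 * j + 2)) • D.dp (D.U 0)) := by
  have h : D.r2 (D.dp (D.Ye a j)) + D.dp (D.Yo a j) =
    (∑ l ∈ range (j + 1), (D.q ^ l * D.e l) • D.G (a + 2 * j + 1 - l)
    + (D.q ^ (j + 1) * D.e (j + 1)) • D.dp (D.U (a + j + 1))
    + ∑ l ∈ range j, (D.q ^ (2 * j + 1 - l) * D.e (a + 2 * j + 1 - l)) • D.G l
    + (D.q ^ (j + 1) * D.e (a + j + 1)) • D.r2 (D.dp (D.U j))
    + (D.q ^ (2 * j + 2) * D.e (a + 2 * j + 2)) • D.dp (D.U 0)) := by
    unfold Yo Ye G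
    simp only [map_add, map_sum, map_smul, smul_add, Finset.sum_add_distrib]
    rw [Finset.sum_range_succ (fun l => (D.q ^ l * D.e l) • D.dp (D.U (a + 2 * j + 2 - l))),
      Finset.sum_range_succ (fun l => (D.q ^ (2 * j + 1 - l) * D.e (a + 2 * j + 1 - l)) •
        D.r2 (D.dp (D.U l))),
      Finset.sum_range_succ' (fun l => (D.q ^ (2 * j + 2 - l) * D.e (a + 2 * j + 2 - l)) •
        D.dp (D.U l))]
    have h1 : ∑ l ∈ range (j + 1), (D.q ^ l * D.e l) • D.dp (D.U (a + 2 * j + 2 - l)) =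
        ∑ l ∈ range (j + 1), (D.q ^ l * D.e l) • D.dp (D.U (a + 2 * j + 1 - l + 1)) := by
      refine Finset.sum_congr rfl (fun l hl => ?_)
      have := Finset.mem_range.1 hl
      rw [show a + 2 * j + 2 - l = a + 2 * j + 1 - l + 1 by omega]
    have h2 : ∑ l ∈ range j, (D.q ^ (2 * j + 2 - (l + 1)) *
        D.e (a + 2 * j + 2 - (l + 1))) • D.dp (D.U (l + 1)) =
        ∑ l ∈ range j, (D.q ^ (2 * j + 1 - l) * D.e (a + 2 * j + 1 - l)) •
          D.dp (D.U (l + 1)) := by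
      refine Finset.sum_congr rfl (fun l hl => ?_)
      rw [show 2 * j + 2 - (l + 1) = 2 * j + 1 - l by omega,
        show a + 2 * j + 2 - (l + 1) = a + 2 * j + 1 - l by omega]
    rw [h1, h2]
    rw [show a + 2 * j + 2 - (j + 1) = a + j + 1 by omega,
      show 2 * j + 1 - j = j + 1 by omega, show a + 2 * j + 1 - j = a + j + 1 by omega]
    simp only [Nat.sub_zero]
    abel
  rw [← h]
  simp only [Xe, map_add]
  abel

/-- the relation between the even and the odd families -/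
theorem TXe (a j : ℕ) : D.Xe (a + 1) j + D.T (D.Xe (a + 1) j) =
    D.Xo a j + D.q • D.Xom (a + 2) j := by
  induction j with
  | zero =>
    rw [D.Xo_zero]
    simp [Xe, Xom, g, G, D.TdU, D.e0]
    abel
  | succ j ih =>
    have hm : D.Xom (a + 2) (j + 1) = D.r2 (D.r2 (D.Xom (a + 2) j)) + D.g (a + 2) j := by
      cases j with
      | zero => simp [Xom, D.Xo_zero]
      | succ j => simp only [Xom]; rw [D.Xo_succ]
    rw [D.Xo_succ, hm]
    have key : (∑ l ∈ range (j + 1), (D.q ^ l * D.e l) • D.G (a + 1 + 2 * j + 1 - l)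
      + (D.q ^ (j + 1) * D.e (j + 1)) • D.dp (D.U (a + 1 + j + 1))
      + ∑ l ∈ range j, (D.q ^ (2 * j + 1 - l) * D.e (a + 1 + 2 * j + 1 - l)) • D.G l
      + (D.q ^ (j + 1) * D.e (a + 1 + j + 1)) • D.r2 (D.dp (D.U j))
      + (D.q ^ (2 * j + 2) * D.e (a + 1 + 2 * j + 2)) • D.dp (D.U 0))
      + D.T (∑ l ∈ range (j + 1), (D.q ^ l * D.e l) • D.G (a + 1 + 2 * j + 1 - l)
      + (D.q ^ (j + 1) * D.e (j + 1)) • D.dp (D.U (a + 1 + j + 1))
      + ∑ l ∈ range j, (D.q ^ (2 * j + 1 - l) * D.e (a + 1 + 2 * j + 1 - l)) • D.G l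
      + (D.q ^ (j + 1) * D.e (a + 1 + j + 1)) • D.r2 (D.dp (D.U j))
      + (D.q ^ (2 * j + 2) * D.e (a + 1 + 2 * j + 2)) • D.dp (D.U 0))
      = D.g a (j + 1) + D.q • D.g (a + 2) j := by
      simp only [map_add, map_sum, map_smul, D.TG, D.T0, D.TdU, D.TrdU]
      have e1 : D.g a (j + 1) = ∑ l ∈ range (j + 1), (D.q ^ l * D.e l) •
          D.G (a + 1 + 2 * j + 1 - l) + (D.q ^ (j + 1) * D.e (j + 1)) • D.G (a + j + 1)
          + (∑ l ∈ range j, (D.q ^ (2 * j + 2 - l) * D.e (a + 1 + 2 * j + 1 - l)) • D.G l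
          + (D.q ^ (j + 2) * D.e (a + j + 2)) • D.G j)
          + (D.q ^ (2 * j + 3) * D.e (a + 2 * j + 3)) • D.dp (D.U 0) := by
        unfold g
        rw [Finset.sum_range_succ (fun l => (D.q ^ l * D.e l) • D.G (a + 2 * (j + 1) - l)),
          Finset.sum_range_succ (fun l => (D.q ^ (2 * (j + 1) - l) *
            D.e (a + 2 * (j + 1) - l)) • D.G l)]
        rw [show a + 2 * (j + 1) - (j + 1) = a + j + 1 by omega,
          show 2 * (j + 1) - j = j + 2 by omega,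
          show a + 2 * (j + 1) - j = a + j + 2 by omega,
          show 2 * (j + 1) + 1 = 2 * j + 3 by ring,
          show a + 2 * (j + 1) + 1 = a + 2 * j + 3 by ring,
          show a + 2 * (j + 1) = a + 1 + 2 * j + 1 by ring,
          show 2 * (j + 1) = 2 * j + 2 by ring]
      have e2 : D.g (a + 2) j = ∑ l ∈ range (j + 1), (D.q ^ l * D.e l) •
          D.G (a + 1 + 2 * j + 1 - l)
          + ∑ l ∈ range j, (D.q ^ (2 * j - l) * D.e (a + 1 + 2 * j + 1 - l)) • D.G l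
          + (D.q ^ (2 * j + 1) * D.e (a + 2 * j + 3)) • D.dp (D.U 0) := by
        unfold g
        rw [show a + 2 + 2 * j + 1 = a + 2 * j + 3 by ring,
          show a + 2 + 2 * j = a + 1 + 2 * j + 1 by ring]
      rw [e1, e2]
      have s1 : ∑ l ∈ range j, (D.q ^ (2 * j + 2 - l) * D.e (a + 1 + 2 * j + 1 - l)) • D.G l =
          D.q • ∑ l ∈ range j, (D.q ^ (2 * j + 1 - l) * D.e (a + 1 + 2 * j + 1 - l)) • D.G l := by
        rw [Finset.smul_sum]
        refine Finset.sum_congr rfl (fun l hl => ?_)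
        have := Finset.mem_range.1 hl
        rw [show 2 * j + 2 - l = 2 * j + 1 - l + 1 by omega, pow_succ]
        module
      have s2 : D.q • ∑ l ∈ range j, (D.q ^ (2 * j - l) * D.e (a + 1 + 2 * j + 1 - l)) • D.G l =
          ∑ l ∈ range j, (D.q ^ (2 * j + 1 - l) * D.e (a + 1 + 2 * j + 1 - l)) • D.G l := by
        rw [Finset.smul_sum]
        refine Finset.sum_congr rfl (fun l hl => ?_)
        have := Finset.mem_range.1 hl
        rw [show 2 * j + 1 - l = 2 * j - l + 1 by omega, pow_succ]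
        module
      have s3 : ∑ l ∈ range (j + 1), (D.q ^ l * D.e l) • D.q • D.G (a + 1 + 2 * j + 1 - l) =
          D.q • ∑ l ∈ range (j + 1), (D.q ^ l * D.e l) • D.G (a + 1 + 2 * j + 1 - l) := by
        rw [Finset.smul_sum]
        exact Finset.sum_congr rfl (fun l _ => smul_comm _ _ _)
      have s4 : ∑ l ∈ range j, (D.q ^ (2 * j + 1 - l) * D.e (a + 1 + 2 * j + 1 - l)) •
          D.q • D.G l = D.q • ∑ l ∈ range j, (D.q ^ (2 * j + 1 - l) *
          D.e (a + 1 + 2 * j + 1 - l)) • D.G l := by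
        rw [Finset.smul_sum]
        exact Finset.sum_congr rfl (fun l _ => smul_comm _ _ _)
      rw [s1, smul_add D.q, smul_add D.q, s2, s3, s4]
      have g1 : D.G (a + j + 1) = D.r2 (D.dp (D.U (a + 1 + j))) + D.dp (D.U (a + 1 + j + 1)) := by
        unfold G
        rw [show a + j + 1 = a + 1 + j by ring]
      have g2 : D.G j = D.r2 (D.dp (D.U j)) + D.dp (D.U (j + 1)) := rfl
      rw [show a + 1 + j + 1 = (a + 1 + j) + 1 by ring] at *
      rw [g1]
      generalize ∑ l ∈ range (j + 1), (D.q ^ l * D.e l) • D.G (a + 1 + 2 * j + 1 - l) = S1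
      generalize ∑ l ∈ range j, (D.q ^ (2 * j + 1 - l) * D.e (a + 1 + 2 * j + 1 - l)) •
        D.G l = S2
      rw [g2, show a + j + 2 = a + 1 + j + 1 by ring,
        show a + 1 + 2 * j + 2 = a + 2 * j + 3 by ring]
      module
    rw [D.Xe_step (a + 1) j]
    rw [map_add D.T, D.comm]
    have hr : D.r2 (D.r2 (D.Xo a j)) + D.q • D.r2 (D.r2 (D.Xom (a + 2) j)) =
        D.r2 (D.r2 (D.Xe (a + 1) j)) + D.r2 (D.r2 (D.T (D.Xe (a + 1) j))) := by
      rw [← map_add D.r2, ← map_add D.r2, ih]; simp only [map_add, map_smul]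
    linear_combination (norm := module) key - hr

theorem TXe_zero (j : ℕ) : D.T (D.Xe 0 j) = D.q • D.Xe 0 j := by
  induction j with
  | zero => exact D.T0
  | succ j ih =>
    rw [D.Xe_step, map_add D.T, D.comm, ih]
    simp only [map_add, map_sum, map_smul, D.TG, D.T0, D.TdU, D.TrdU]
    have s3 : ∑ l ∈ range (j + 1), (D.q ^ l * D.e l) • D.q • D.G (0 + 2 * j + 1 - l) =
        D.q • ∑ l ∈ range (j + 1), (D.q ^ l * D.e l) • D.G (0 + 2 * j + 1 - l) := by
      rw [Finset.smul_sum]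
      exact Finset.sum_congr rfl (fun l _ => smul_comm _ _ _)
    have s4 : ∑ l ∈ range j, (D.q ^ (2 * j + 1 - l) * D.e (0 + 2 * j + 1 - l)) •
        D.q • D.G l = D.q • ∑ l ∈ range j, (D.q ^ (2 * j + 1 - l) *
        D.e (0 + 2 * j + 1 - l)) • D.G l := by
      rw [Finset.smul_sum]
      exact Finset.sum_congr rfl (fun l _ => smul_comm _ _ _)
    rw [s3, s4, show (0 : ℕ) + j = j by ring]
    module

/-! ### closing the oldest vertex -/

theorem r1S (J m : ℕ) (c : ℕ → A) (h : J ≤ m + 1) :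
    D.r1 (∑ l ∈ range J, c l • D.U (m - l)) = ∑ l ∈ range J, c l • D.U (m + 1 - l)
      - (∑ l ∈ range J, c l * D.e (m + 1 - l)) • D.U 0 := by
  rw [map_sum, Finset.sum_smul, ← Finset.sum_sub_distrib]
  refine Finset.sum_congr rfl (fun l hl => ?_)
  have := Finset.mem_range.1 hl
  rw [map_smul, D.r1U, show m - l + 1 = m + 1 - l by omega]
  module

theorem BS (J m : ℕ) (c : ℕ → A) (h : J ≤ m + 1) :
    D.dm (D.dp (∑ l ∈ range J, c l • D.U (m - l))) = ∑ l ∈ range J, c l • D.U (m + 1 - l)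
      + (∑ l ∈ range J, c l * ((qn D.q (m + 1 - l) - 1) * D.e (m + 1 - l))) • D.U 0 := by
  rw [map_sum, map_sum, Finset.sum_smul, ← Finset.sum_add_distrib]
  refine Finset.sum_congr rfl (fun l hl => ?_)
  have := Finset.mem_range.1 hl
  rw [map_smul, map_smul, D.BU, show m - l + 1 = m + 1 - l by omega]
  module

theorem r1R (J : ℕ) (c : ℕ → A) :
    D.r1 (∑ l ∈ range J, c l • D.U l) = ∑ l ∈ range J, c l • D.U (l + 1)
      - (∑ l ∈ range J, c l * D.e (l + 1)) • D.U 0 := by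
  rw [map_sum, Finset.sum_smul, ← Finset.sum_sub_distrib]
  refine Finset.sum_congr rfl (fun l _ => ?_)
  rw [map_smul, D.r1U]
  module

theorem BR (J : ℕ) (c : ℕ → A) :
    D.dm (D.dp (∑ l ∈ range J, c l • D.U l)) = ∑ l ∈ range J, c l • D.U (l + 1)
      + (∑ l ∈ range J, c l * ((qn D.q (l + 1) - 1) * D.e (l + 1))) • D.U 0 := by
  rw [map_sum, map_sum, Finset.sum_smul, ← Finset.sum_add_distrib]
  refine Finset.sum_congr rfl (fun l _ => ?_)
  rw [map_smul, map_smul, D.BU]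
  module

theorem Ee_succ (a j : ℕ) :
    D.Ee a (j + 1) = D.q • D.r1 (D.Eo a j) + D.dm (D.dp (D.Yo a j)) := by
  unfold Eo Yo
  rw [map_add D.r1, map_add D.dp, map_add D.dm,
    D.r1S (j + 2) (a + 2 * j + 2) (fun l => D.q ^ l * qn D.q (2 * j + 2 - l) * D.e l) (by omega),
    D.r1R (j + 1) (fun l => D.q ^ (2 * j + 2 - l) * qn D.q (a + l) * D.e (a + 2 * j + 2 - l)),
    D.BS (j + 2) (a + 2 * j + 2) (fun l => D.q ^ l * D.e l) (by omega),
    D.BR (j + 1) (fun l => D.q ^ (2 * j + 2 - l) * D.e (a + 2 * j + 2 - l))]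
  -- scalar identity
  have hs : - D.q * (∑ l ∈ range (j + 2), D.q ^ l * qn D.q (2 * j + 2 - l) * D.e l *
        D.e (a + 2 * j + 2 + 1 - l))
      - D.q * (∑ l ∈ range (j + 1), D.q ^ (2 * j + 2 - l) * qn D.q (a + l) *
        D.e (a + 2 * j + 2 - l) * D.e (l + 1))
      + (∑ l ∈ range (j + 2), D.q ^ l * D.e l * ((qn D.q (a + 2 * j + 2 + 1 - l) - 1) *
        D.e (a + 2 * j + 2 + 1 - l)))
      + (∑ l ∈ range (j + 1), D.q ^ (2 * j + 2 - l) * D.e (a + 2 * j + 2 - l) *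
        ((qn D.q (l + 1) - 1) * D.e (l + 1)))
      = D.q ^ (2 * j + 3) * qn D.q a * D.e (a + 2 * j + 3) := by
    have t1 : - D.q * (∑ l ∈ range (j + 2), D.q ^ l * qn D.q (2 * j + 2 - l) * D.e l *
        D.e (a + 2 * j + 2 + 1 - l)) + (∑ l ∈ range (j + 2), D.q ^ l * D.e l *
        ((qn D.q (a + 2 * j + 2 + 1 - l) - 1) * D.e (a + 2 * j + 2 + 1 - l))) =
        ∑ l ∈ range (j + 2), D.q ^ (2 * j + 3) * qn D.q a *
          (D.e l * D.e (a + 2 * j + 3 - l)) := by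
      rw [Finset.mul_sum, ← Finset.sum_add_distrib]
      refine Finset.sum_congr rfl (fun l hl => ?_)
      have := Finset.mem_range.1 hl
      obtain ⟨k, hk⟩ : ∃ k, 2 * j + 2 = l + k := ⟨2 * j + 2 - l, by omega⟩
      rw [show 2 * j + 2 - l = k by omega, show a + 2 * j + 2 + 1 - l = k + 1 + a by omega,
        show 2 * j + 3 = l + (k + 1) by omega, qn_add, qn_succ]
      ring
    have t2 : - D.q * (∑ l ∈ range (j + 1), D.q ^ (2 * j + 2 - l) * qn D.q (a + l) *
        D.e (a + 2 * j + 2 - l) * D.e (l + 1)) + (∑ l ∈ range (j + 1),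
        D.q ^ (2 * j + 2 - l) * D.e (a + 2 * j + 2 - l) *
        ((qn D.q (l + 1) - 1) * D.e (l + 1))) =
        - ∑ l ∈ range (j + 1), D.q ^ (2 * j + 3) * qn D.q a *
          (D.e (l + 1) * D.e (a + 2 * j + 3 - (l + 1))) := by
      rw [Finset.mul_sum, ← Finset.sum_add_distrib, ← Finset.sum_neg_distrib]
      refine Finset.sum_congr rfl (fun l hl => ?_)
      have := Finset.mem_range.1 hl
      obtain ⟨k, hk⟩ : ∃ k, 2 * j + 2 = l + k := ⟨2 * j + 2 - l, by omega⟩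
      rw [show 2 * j + 2 - l = k by omega, show a + 2 * j + 2 - l = k + a by omega,
        show a + 2 * j + 3 - (l + 1) = k + a by omega, show 2 * j + 3 = l + (k + 1) by omega,
        show a + l = l + a by ring, qn_add, qn_succ]
      ring
    have t3 : ∑ l ∈ range (j + 2), D.q ^ (2 * j + 3) * qn D.q a *
          (D.e l * D.e (a + 2 * j + 3 - l)) = ∑ l ∈ range (j + 1), D.q ^ (2 * j + 3) * qn D.q a *
          (D.e (l + 1) * D.e (a + 2 * j + 3 - (l + 1))) +
          D.q ^ (2 * j + 3) * qn D.q a * D.e (a + 2 * j + 3) := by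
      rw [Finset.sum_range_succ']
      simp [D.e0]
    linear_combination t1 + t2 + t3
  -- the two families of terms
  unfold Ee
  rw [show j + 1 + 1 = j + 2 by ring, show 2 * (j + 1) + 1 = 2 * j + 3 by ring,
    show a + 2 * (j + 1) + 1 = a + 2 * j + 3 by ring,
    Finset.sum_range_succ' (fun l => (D.q ^ (2 * j + 3 - l) * qn D.q (a + l) *
      D.e (a + 2 * j + 3 - l)) • D.U l)]
  have u1 : ∑ l ∈ range (j + 2), (D.q ^ l * qn D.q (2 * j + 3 - l) * D.e l) •
      D.U (a + 2 * j + 3 - l) = D.q • (∑ l ∈ range (j + 2),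
      (D.q ^ l * qn D.q (2 * j + 2 - l) * D.e l) • D.U (a + 2 * j + 2 + 1 - l)) +
      ∑ l ∈ range (j + 2), (D.q ^ l * D.e l) • D.U (a + 2 * j + 2 + 1 - l) := by
    rw [Finset.smul_sum, ← Finset.sum_add_distrib]
    refine Finset.sum_congr rfl (fun l hl => ?_)
    have := Finset.mem_range.1 hl
    rw [show 2 * j + 3 - l = 2 * j + 2 - l + 1 by omega, qn_succ,
      show a + 2 * j + 2 + 1 - l = a + 2 * j + 3 - l by omega]
    module
  have u2 : ∑ l ∈ range (j + 1), (D.q ^ (2 * j + 3 - (l + 1)) * qn D.q (a + (l + 1)) *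
      D.e (a + 2 * j + 3 - (l + 1))) • D.U (l + 1) = D.q • (∑ l ∈ range (j + 1),
      (D.q ^ (2 * j + 2 - l) * qn D.q (a + l) * D.e (a + 2 * j + 2 - l)) • D.U (l + 1)) +
      ∑ l ∈ range (j + 1), (D.q ^ (2 * j + 2 - l) * D.e (a + 2 * j + 2 - l)) •
        D.U (l + 1) := by
    rw [Finset.smul_sum, ← Finset.sum_add_distrib]
    refine Finset.sum_congr rfl (fun l hl => ?_)
    have := Finset.mem_range.1 hl
    rw [show 2 * j + 3 - (l + 1) = 2 * j + 2 - l by omega, ← add_assoc a l 1, qn_succ,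
      show a + 2 * j + 3 - (l + 1) = a + 2 * j + 2 - l by omega]
    module
  rw [u1, u2]
  simp only [Nat.sub_zero, add_zero]
  rw [← hs]
  module

/-- odd elements, shifted -/
def Eom (a : ℕ) : ℕ → M1
  | 0 => 0
  | (j + 1) => D.Eo a j

theorem Eom_eq (a j : ℕ) : D.Eom a j =
    ∑ l ∈ range (j + 1), (D.q ^ l * qn D.q (2 * j - l) * D.e l) • D.U (a + 2 * j - l)
    + ∑ l ∈ range j, (D.q ^ (2 * j - l) * qn D.q (a + l) * D.e (a + 2 * j - l)) • D.U l := by
  cases j with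
  | zero => simp [Eom, qn_zero]
  | succ j =>
    simp only [Eom, Eo]
    rw [show j + 1 + 1 = j + 2 by ring, show 2 * (j + 1) = 2 * j + 2 by ring,
      show a + (2 * j + 2) = a + 2 * j + 2 by ring]

theorem Z_eq (a j : ℕ) : - D.Ee (a + 1) j + D.Eo a j + D.q • D.Eom (a + 2) j =
    ∑ l ∈ range (j + 1), (D.q ^ l * (qn D.q (2 * j + 2 - l) - 1) * D.e l) •
        D.U (a + 2 * j + 2 - l)
    + (D.q ^ (j + 1) * qn D.q (j + 1) * D.e (j + 1)) • D.U (a + j + 1)
    + ∑ l ∈ range j, (D.q ^ (2 * j + 1 - l) * (qn D.q (a + l + 2) - 1) *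
        D.e (a + 2 * j + 2 - l)) • D.U l
    - (D.q ^ (j + 1) * D.e (a + j + 2)) • D.U j := by
  rw [D.Eom_eq]
  unfold Ee Eo
  rw [Finset.sum_range_succ (fun l => (D.q ^ l * qn D.q (2 * j + 2 - l) * D.e l) •
      D.U (a + 2 * j + 2 - l)) (j + 1),
    Finset.sum_range_succ (fun l => (D.q ^ (2 * j + 1 - l) * qn D.q (a + 1 + l) *
      D.e (a + 1 + 2 * j + 1 - l)) • D.U l) j,
    Finset.sum_range_succ (fun l => (D.q ^ (2 * j + 2 - l) * qn D.q (a + l) *
      D.e (a + 2 * j + 2 - l)) • D.U l) j]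
  have v1 : ∑ l ∈ range (j + 1), (D.q ^ l * (qn D.q (2 * j + 2 - l) - 1) * D.e l) •
        D.U (a + 2 * j + 2 - l) =
      - ∑ l ∈ range (j + 1), (D.q ^ l * qn D.q (2 * j + 1 - l) * D.e l) •
        D.U (a + 1 + 2 * j + 1 - l)
      + ∑ l ∈ range (j + 1), (D.q ^ l * qn D.q (2 * j + 2 - l) * D.e l) •
        D.U (a + 2 * j + 2 - l)
      + D.q • ∑ l ∈ range (j + 1), (D.q ^ l * qn D.q (2 * j - l) * D.e l) •
        D.U (a + 2 + 2 * j - l) := by
    rw [Finset.smul_sum, ← Finset.sum_neg_distrib, ← Finset.sum_add_distrib,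
      ← Finset.sum_add_distrib]
    refine Finset.sum_congr rfl (fun l hl => ?_)
    have := Finset.mem_range.1 hl
    obtain ⟨k, hk⟩ : ∃ k, 2 * j = l + k := ⟨2 * j - l, by omega⟩
    rw [show 2 * j + 2 - l = k + 1 + 1 by omega, show 2 * j + 1 - l = k + 1 by omega,
      show 2 * j - l = k by omega, show a + 1 + 2 * j + 1 - l = a + 2 * j + 2 - l by omega,
      show a + 2 + 2 * j - l = a + 2 * j + 2 - l by omega, qn_succ, qn_succ]
    module
  have v2 : ∑ l ∈ range j, (D.q ^ (2 * j + 1 - l) * (qn D.q (a + l + 2) - 1) *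
        D.e (a + 2 * j + 2 - l)) • D.U l =
      - ∑ l ∈ range j, (D.q ^ (2 * j + 1 - l) * qn D.q (a + 1 + l) *
        D.e (a + 1 + 2 * j + 1 - l)) • D.U l
      + ∑ l ∈ range j, (D.q ^ (2 * j + 2 - l) * qn D.q (a + l) *
        D.e (a + 2 * j + 2 - l)) • D.U l
      + D.q • ∑ l ∈ range j, (D.q ^ (2 * j - l) * qn D.q (a + 2 + l) *
        D.e (a + 2 + 2 * j - l)) • D.U l := by
    rw [Finset.smul_sum, ← Finset.sum_neg_distrib, ← Finset.sum_add_distrib,
      ← Finset.sum_add_distrib]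
    refine Finset.sum_congr rfl (fun l hl => ?_)
    have := Finset.mem_range.1 hl
    obtain ⟨k, hk⟩ : ∃ k, 2 * j = l + k := ⟨2 * j - l, by omega⟩
    rw [show 2 * j + 2 - l = k + 1 + 1 by omega, show 2 * j + 1 - l = k + 1 by omega,
      show 2 * j - l = k by omega, show a + 1 + 2 * j + 1 - l = a + 2 * j + 2 - l by omega,
      show a + 2 + 2 * j - l = a + 2 * j + 2 - l by omega,
      show a + l + 2 = a + l + 1 + 1 by ring, show a + 1 + l = a + l + 1 by ring,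
      show a + 2 + l = a + l + 1 + 1 by ring, qn_succ, qn_succ]
    module
  rw [v1, v2, show 2 * j + 2 - (j + 1) = j + 1 by omega,
    show a + 2 * j + 2 - (j + 1) = a + j + 1 by omega, show 2 * j + 1 - j = j + 1 by omega,
    show 2 * j + 2 - j = j + 2 by omega, show a + 1 + 2 * j + 1 - j = a + j + 2 by omega,
    show a + 2 * j + 2 - j = a + j + 2 by omega, show a + 1 + j = a + j + 1 by ring,
    qn_succ D.q (a + j)]
  module

theorem Eo_succ (a j : ℕ) : D.Eo (a + 1) j =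
    D.r1 (- D.Ee (a + 1) j + D.Eo a j + D.q • D.Eom (a + 2) j) +
      D.dm (D.dp (D.Ye (a + 1) j)) := by
  rw [D.Z_eq]
  unfold Ye
  rw [map_sub, map_add D.r1, map_add D.r1, map_smul, map_smul, D.r1U, D.r1U, map_add D.dp,
    map_add D.dm,
    D.r1S (j + 1) (a + 2 * j + 2) (fun l => D.q ^ l * (qn D.q (2 * j + 2 - l) - 1) * D.e l)
      (by omega),
    D.r1R j (fun l => D.q ^ (2 * j + 1 - l) * (qn D.q (a + l + 2) - 1) *
        D.e (a + 2 * j + 2 - l)),
    show a + 1 + 2 * j + 1 = a + 2 * j + 2 by ring,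
    D.BS (j + 1) (a + 2 * j + 2) (fun l => D.q ^ l * D.e l) (by omega),
    D.BR (j + 1) (fun l => D.q ^ (2 * j + 1 - l) * D.e (a + 2 * j + 2 - l))]
  have hs : - (∑ l ∈ range (j + 1), D.q ^ l * (qn D.q (2 * j + 2 - l) - 1) * D.e l *
        D.e (a + 2 * j + 2 + 1 - l))
      - (D.q ^ (j + 1) * qn D.q (j + 1) * D.e (j + 1)) * D.e (a + j + 1 + 1)
      - (∑ l ∈ range j, D.q ^ (2 * j + 1 - l) * (qn D.q (a + l + 2) - 1) *
        D.e (a + 2 * j + 2 - l) * D.e (l + 1))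
      + (D.q ^ (j + 1) * D.e (a + j + 2)) * D.e (j + 1)
      + (∑ l ∈ range (j + 1), D.q ^ l * D.e l * ((qn D.q (a + 2 * j + 2 + 1 - l) - 1) *
        D.e (a + 2 * j + 2 + 1 - l)))
      + (∑ l ∈ range (j + 1), D.q ^ (2 * j + 1 - l) * D.e (a + 2 * j + 2 - l) *
        ((qn D.q (l + 1) - 1) * D.e (l + 1)))
      = D.q ^ (2 * j + 2) * qn D.q (a + 1) * D.e (a + 2 * j + 3) := by
    have t1 : - (∑ l ∈ range (j + 1), D.q ^ l * (qn D.q (2 * j + 2 - l) - 1) * D.e l *
        D.e (a + 2 * j + 2 + 1 - l)) + (∑ l ∈ range (j + 1), D.q ^ l * D.e l *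
        ((qn D.q (a + 2 * j + 2 + 1 - l) - 1) * D.e (a + 2 * j + 2 + 1 - l))) =
        ∑ l ∈ range (j + 1), D.q ^ (2 * j + 2) * qn D.q (a + 1) *
          (D.e l * D.e (a + 2 * j + 3 - l)) := by
      rw [← Finset.sum_neg_distrib, ← Finset.sum_add_distrib]
      refine Finset.sum_congr rfl (fun l hl => ?_)
      have := Finset.mem_range.1 hl
      obtain ⟨k, hk⟩ : ∃ k, 2 * j + 2 = l + k := ⟨2 * j + 2 - l, by omega⟩
      rw [show 2 * j + 2 - l = k by omega, show a + 2 * j + 2 + 1 - l = k + (a + 1) by omega,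
        show 2 * j + 2 = l + k by omega, qn_add]
      ring
    have t2 : - (∑ l ∈ range j, D.q ^ (2 * j + 1 - l) * (qn D.q (a + l + 2) - 1) *
        D.e (a + 2 * j + 2 - l) * D.e (l + 1)) + (∑ l ∈ range j,
        D.q ^ (2 * j + 1 - l) * D.e (a + 2 * j + 2 - l) *
        ((qn D.q (l + 1) - 1) * D.e (l + 1))) =
        - ∑ l ∈ range j, D.q ^ (2 * j + 2) * qn D.q (a + 1) *
          (D.e (l + 1) * D.e (a + 2 * j + 3 - (l + 1))) := by
      rw [← Finset.sum_neg_distrib, ← Finset.sum_add_distrib, ← Finset.sum_neg_distrib]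
      refine Finset.sum_congr rfl (fun l hl => ?_)
      have := Finset.mem_range.1 hl
      obtain ⟨k, hk⟩ : ∃ k, 2 * j + 1 = l + k := ⟨2 * j + 1 - l, by omega⟩
      rw [show 2 * j + 1 - l = k by omega, show a + 2 * j + 2 - l = k + a + 1 by omega,
        show a + 2 * j + 3 - (l + 1) = k + a + 1 by omega,
        show 2 * j + 2 = l + 1 + k by omega,
        show a + l + 2 = l + 1 + (a + 1) by ring, qn_add D.q (l + 1)]
      ring
    have t3 : ∑ l ∈ range (j + 1), D.q ^ (2 * j + 2) * qn D.q (a + 1) *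
          (D.e l * D.e (a + 2 * j + 3 - l)) = ∑ l ∈ range j,
          D.q ^ (2 * j + 2) * qn D.q (a + 1) *
          (D.e (l + 1) * D.e (a + 2 * j + 3 - (l + 1))) +
          D.q ^ (2 * j + 2) * qn D.q (a + 1) * D.e (a + 2 * j + 3) := by
      rw [Finset.sum_range_succ']
      simp [D.e0]
    have t4 : ∑ l ∈ range (j + 1), D.q ^ (2 * j + 1 - l) * D.e (a + 2 * j + 2 - l) *
        ((qn D.q (l + 1) - 1) * D.e (l + 1)) = ∑ l ∈ range j,
        D.q ^ (2 * j + 1 - l) * D.e (a + 2 * j + 2 - l) *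
        ((qn D.q (l + 1) - 1) * D.e (l + 1)) + D.q ^ (j + 1) * D.e (a + j + 2) *
        ((qn D.q (j + 1) - 1) * D.e (j + 1)) := by
      rw [Finset.sum_range_succ, show 2 * j + 1 - j = j + 1 by omega,
        show a + 2 * j + 2 - j = a + j + 2 by omega]
    rw [show a + j + 1 + 1 = a + j + 2 by ring]
    linear_combination t1 + t2 + t3 + t4
  unfold Eo
  rw [Finset.sum_range_succ (fun l => (D.q ^ l * qn D.q (2 * j + 2 - l) * D.e l) •
      D.U (a + 1 + 2 * j + 2 - l)) (j + 1),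
    Finset.sum_range_succ' (fun l => (D.q ^ (2 * j + 2 - l) * qn D.q (a + 1 + l) *
      D.e (a + 1 + 2 * j + 2 - l)) • D.U l) j,
    Finset.sum_range_succ (fun l => (D.q ^ (2 * j + 1 - l) * D.e (a + 2 * j + 2 - l)) •
      D.U (l + 1)) j]
  have u1 : ∑ l ∈ range (j + 1), (D.q ^ l * qn D.q (2 * j + 2 - l) * D.e l) •
      D.U (a + 1 + 2 * j + 2 - l) = ∑ l ∈ range (j + 1),
      (D.q ^ l * (qn D.q (2 * j + 2 - l) - 1) * D.e l) • D.U (a + 2 * j + 2 + 1 - l) +
      ∑ l ∈ range (j + 1), (D.q ^ l * D.e l) • D.U (a + 2 * j + 2 + 1 - l) := by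
    rw [← Finset.sum_add_distrib]
    refine Finset.sum_congr rfl (fun l hl => ?_)
    rw [show a + 1 + 2 * j + 2 - l = a + 2 * j + 2 + 1 - l by omega]
    module
  have u2 : ∑ l ∈ range j, (D.q ^ (2 * j + 2 - (l + 1)) * qn D.q (a + 1 + (l + 1)) *
      D.e (a + 1 + 2 * j + 2 - (l + 1))) • D.U (l + 1) = ∑ l ∈ range j,
      (D.q ^ (2 * j + 1 - l) * (qn D.q (a + l + 2) - 1) * D.e (a + 2 * j + 2 - l)) •
        D.U (l + 1) +
      ∑ l ∈ range j, (D.q ^ (2 * j + 1 - l) * D.e (a + 2 * j + 2 - l)) •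
        D.U (l + 1) := by
    rw [← Finset.sum_add_distrib]
    refine Finset.sum_congr rfl (fun l hl => ?_)
    have := Finset.mem_range.1 hl
    rw [show 2 * j + 2 - (l + 1) = 2 * j + 1 - l by omega,
      show a + 1 + (l + 1) = a + l + 2 by ring,
      show a + 1 + 2 * j + 2 - (l + 1) = a + 2 * j + 2 - l by omega]
    module
  rw [u1, u2]
  simp only [Nat.sub_zero, add_zero]
  rw [show a + 1 + 2 * j + 2 = a + 2 * j + 3 by ring, ← hs,
    show 2 * j + 2 - (j + 1) = j + 1 by omega,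
    show a + 2 * j + 3 - (j + 1) = a + j + 1 + 1 by omega,
    show 2 * j + 1 - j = j + 1 by omega, show a + 2 * j + 2 - j = a + j + 2 by omega]
  module

theorem Eo_zero (j : ℕ) : D.Eo 0 j =
    D.q • D.r1 (D.Ee 0 j) + D.dm (D.dp (D.Ye 0 j)) := by
  unfold Ee Ye
  simp only [zero_add]
  rw [map_add D.r1, map_add D.dp, map_add D.dm,
    D.r1S (j + 1) (2 * j + 1) (fun l => D.q ^ l * qn D.q (2 * j + 1 - l) * D.e l) (by omega),
    D.r1R (j + 1) (fun l => D.q ^ (2 * j + 1 - l) * qn D.q l * D.e (2 * j + 1 - l)),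
    D.BS (j + 1) (2 * j + 1) (fun l => D.q ^ l * D.e l) (by omega),
    D.BR (j + 1) (fun l => D.q ^ (2 * j + 1 - l) * D.e (2 * j + 1 - l))]
  have hs1 : (∑ l ∈ range (j + 1), D.q ^ l * D.e l * ((qn D.q (2 * j + 1 + 1 - l) - 1) *
        D.e (2 * j + 1 + 1 - l))) = D.q * (∑ l ∈ range (j + 1),
        D.q ^ l * qn D.q (2 * j + 1 - l) * D.e l * D.e (2 * j + 1 + 1 - l)) := by
    rw [Finset.mul_sum]
    refine Finset.sum_congr rfl (fun l hl => ?_)
    have := Finset.mem_range.1 hl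
    rw [show 2 * j + 1 + 1 - l = 2 * j + 1 - l + 1 by omega, qn_succ]
    ring
  have hs2 : (∑ l ∈ range (j + 1), D.q ^ (2 * j + 1 - l) * D.e (2 * j + 1 - l) *
        ((qn D.q (l + 1) - 1) * D.e (l + 1))) = D.q * (∑ l ∈ range (j + 1),
        D.q ^ (2 * j + 1 - l) * qn D.q l * D.e (2 * j + 1 - l) * D.e (l + 1)) := by
    rw [Finset.mul_sum]
    refine Finset.sum_congr rfl (fun l hl => ?_)
    rw [qn_succ]
    ring
  unfold Eo
  simp only [zero_add]
  rw [hs1, hs2, Finset.sum_range_succ (fun l => (D.q ^ l * qn D.q (2 * j + 2 - l) * D.e l) •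
      D.U (2 * j + 2 - l)) (j + 1)]
  have u1 : ∑ l ∈ range (j + 1), (D.q ^ l * qn D.q (2 * j + 2 - l) * D.e l) •
      D.U (2 * j + 2 - l) = D.q • ∑ l ∈ range (j + 1),
      (D.q ^ l * qn D.q (2 * j + 1 - l) * D.e l) • D.U (2 * j + 1 + 1 - l) +
      ∑ l ∈ range (j + 1), (D.q ^ l * D.e l) • D.U (2 * j + 1 + 1 - l) := by
    rw [Finset.smul_sum, ← Finset.sum_add_distrib]
    refine Finset.sum_congr rfl (fun l hl => ?_)
    have := Finset.mem_range.1 hl
    rw [show 2 * j + 1 + 1 - l = 2 * j + 2 - l by omega,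
      show 2 * j + 2 - l = 2 * j + 1 - l + 1 by omega, qn_succ]
    module
  have u2 : ∑ l ∈ range (j + 1), (D.q ^ (2 * j + 2 - l) * qn D.q l * D.e (2 * j + 2 - l)) •
      D.U l + (D.q ^ (j + 1) * qn D.q (j + 1) * D.e (j + 1)) • D.U (j + 1) =
      D.q • ∑ l ∈ range (j + 1),
      (D.q ^ (2 * j + 1 - l) * qn D.q l * D.e (2 * j + 1 - l)) • D.U (l + 1) +
      ∑ l ∈ range (j + 1), (D.q ^ (2 * j + 1 - l) * D.e (2 * j + 1 - l)) • D.U (l + 1) := by
    have h1 : ∑ l ∈ range (j + 2), (D.q ^ (2 * j + 2 - l) * qn D.q l *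
        D.e (2 * j + 2 - l)) • D.U l = ∑ l ∈ range (j + 1),
        (D.q ^ (2 * j + 2 - l) * qn D.q l * D.e (2 * j + 2 - l)) •
      D.U l + (D.q ^ (j + 1) * qn D.q (j + 1) * D.e (j + 1)) • D.U (j + 1) := by
      rw [Finset.sum_range_succ, show 2 * j + 2 - (j + 1) = j + 1 by omega]
    rw [← h1, Finset.sum_range_succ', Finset.smul_sum, ← Finset.sum_add_distrib]
    simp only [qn_zero, mul_zero, zero_mul, zero_smul, add_zero]
    refine Finset.sum_congr rfl (fun l hl => ?_)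
    rw [show 2 * j + 2 - (l + 1) = 2 * j + 1 - l by omega, qn_succ]
    module
  rw [u1, show 2 * j + 2 - (j + 1) = j + 1 by omega]
  linear_combination (norm := module) u2

/-- closing the oldest vertex on the even and odd families -/
theorem dmX (j : ℕ) : ∀ a, D.dm (D.Xe a j) = D.Ee a j ∧ D.dm (D.Xo a j) = D.Eo a j := by
  induction j with
  | zero =>
    have he : ∀ a, D.dm (D.Xe a 0) = D.Ee a 0 := by
      intro a
      simp only [Xe, Ee]
      rw [D.BU, qn_succ]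
      simp [D.e0, qn_one]
    intro a
    refine ⟨he a, ?_⟩
    induction a with
    | zero =>
      unfold Xo
      rw [map_add, D.dmr, D.TXe_zero, map_smul, map_smul, he, D.Eo_zero]
    | succ a ih =>
      have h := D.TXe a 0
      have h2 : D.T (D.Xe (a + 1) 0) = - D.Xe (a + 1) 0 + D.Xo a 0 + D.q • D.Xom (a + 2) 0 := by
        linear_combination (norm := module) h
      rw [D.Eo_succ]
      conv_lhs => unfold Xo
      rw [map_add, D.dmr, h2]
      simp only [map_add, map_neg, map_smul, he, ih, Xom, Eom, map_zero]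
  | succ j ih =>
    have he : ∀ a, D.dm (D.Xe a (j + 1)) = D.Ee a (j + 1) := by
      intro a
      rw [D.Xe_succ, map_add, D.dmr, D.TXo, map_smul, map_smul, (ih a).2, D.Ee_succ]
    intro a
    refine ⟨he a, ?_⟩
    induction a with
    | zero =>
      unfold Xo
      rw [map_add, D.dmr, D.TXe_zero, map_smul, map_smul, he, D.Eo_zero]
    | succ a iha =>
      have h := D.TXe a (j + 1)
      have h2 : D.T (D.Xe (a + 1) (j + 1)) = - D.Xe (a + 1) (j + 1) + D.Xo a (j + 1)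
          + D.q • D.Xom (a + 2) (j + 1) := by
        linear_combination (norm := module) h
      rw [D.Eo_succ]
      conv_lhs => unfold Xo
      rw [map_add, D.dmr, h2]
      simp only [map_add, map_neg, map_smul, he, iha, Xom, Eom, (ih (a + 2)).2]

/-- add a vertex adjacent to both active vertices, then close the oldest one -/
theorem BXe (a j : ℕ) : D.r2 (D.Xe (a + 1) j) + D.dp (D.dm (D.Xe (a + 1) j)) =
    D.Xo (a + 1) j
    + ∑ l ∈ range (j + 1), (D.q ^ (l + 1) * qn D.q (2 * j - l) * D.e l) •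
        D.dp (D.U (a + 2 * j + 2 - l))
    + ∑ l ∈ range (j + 1), (D.q ^ (2 * j + 2 - l) * qn D.q (a + l) *
        D.e (a + 2 * j + 2 - l)) • D.dp (D.U l) := by
  rw [(D.dmX j (a + 1)).1]
  unfold Xo Ye Ee
  simp only [map_add, map_sum, map_smul]
  have h1 : ∑ l ∈ range (j + 1), (D.q ^ l * qn D.q (2 * j + 1 - l) * D.e l) •
      D.dp (D.U (a + 1 + 2 * j + 1 - l)) =
      ∑ l ∈ range (j + 1), (D.q ^ l * D.e l) • D.dp (D.U (a + 1 + 2 * j + 1 - l)) +
      ∑ l ∈ range (j + 1), (D.q ^ (l + 1) * qn D.q (2 * j - l) * D.e l) •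
        D.dp (D.U (a + 2 * j + 2 - l)) := by
    rw [← Finset.sum_add_distrib]
    refine Finset.sum_congr rfl (fun l hl => ?_)
    have := Finset.mem_range.1 hl
    rw [show 2 * j + 1 - l = 2 * j - l + 1 by omega, qn_succ,
      show a + 1 + 2 * j + 1 - l = a + 2 * j + 2 - l by omega]
    module
  have h2 : ∑ l ∈ range (j + 1), (D.q ^ (2 * j + 1 - l) * qn D.q (a + 1 + l) *
      D.e (a + 1 + 2 * j + 1 - l)) • D.dp (D.U l) =
      ∑ l ∈ range (j + 1), (D.q ^ (2 * j + 1 - l) * D.e (a + 1 + 2 * j + 1 - l)) •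
        D.dp (D.U l) +
      ∑ l ∈ range (j + 1), (D.q ^ (2 * j + 2 - l) * qn D.q (a + l) *
        D.e (a + 2 * j + 2 - l)) • D.dp (D.U l) := by
    rw [← Finset.sum_add_distrib]
    refine Finset.sum_congr rfl (fun l hl => ?_)
    have := Finset.mem_range.1 hl
    rw [show a + 1 + l = a + l + 1 by ring, qn_succ,
      show 2 * j + 2 - l = 2 * j + 1 - l + 1 by omega,
      show a + 1 + 2 * j + 1 - l = a + 2 * j + 2 - l by omega]
    module
  rw [h1, h2]
  abel

theorem BXo (a j : ℕ) : D.r2 (D.Xo (a + 1) j) + D.dp (D.dm (D.Xo (a + 1) j)) =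
    D.Xe (a + 1) (j + 1)
    + ∑ l ∈ range (j + 2), (D.q ^ (l + 1) * qn D.q (2 * j + 1 - l) * D.e l) •
        D.dp (D.U (a + 2 * j + 3 - l))
    + ∑ l ∈ range (j + 1), (D.q ^ (2 * j + 3 - l) * qn D.q (a + l) *
        D.e (a + 2 * j + 3 - l)) • D.dp (D.U l) := by
  rw [(D.dmX j (a + 1)).2, D.Xe_succ]
  unfold Yo Eo
  simp only [map_add, map_sum, map_smul]
  have h1 : ∑ l ∈ range (j + 2), (D.q ^ l * qn D.q (2 * j + 2 - l) * D.e l) •
      D.dp (D.U (a + 1 + 2 * j + 2 - l)) =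
      ∑ l ∈ range (j + 2), (D.q ^ l * D.e l) • D.dp (D.U (a + 1 + 2 * j + 2 - l)) +
      ∑ l ∈ range (j + 2), (D.q ^ (l + 1) * qn D.q (2 * j + 1 - l) * D.e l) •
        D.dp (D.U (a + 2 * j + 3 - l)) := by
    rw [← Finset.sum_add_distrib]
    refine Finset.sum_congr rfl (fun l hl => ?_)
    have := Finset.mem_range.1 hl
    rw [show 2 * j + 2 - l = 2 * j + 1 - l + 1 by omega, qn_succ,
      show a + 1 + 2 * j + 2 - l = a + 2 * j + 3 - l by omega]
    module
  have h2 : ∑ l ∈ range (j + 1), (D.q ^ (2 * j + 2 - l) * qn D.q (a + 1 + l) *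
      D.e (a + 1 + 2 * j + 2 - l)) • D.dp (D.U l) =
      ∑ l ∈ range (j + 1), (D.q ^ (2 * j + 2 - l) * D.e (a + 1 + 2 * j + 2 - l)) •
        D.dp (D.U l) +
      ∑ l ∈ range (j + 1), (D.q ^ (2 * j + 3 - l) * qn D.q (a + l) *
        D.e (a + 2 * j + 3 - l)) • D.dp (D.U l) := by
    rw [← Finset.sum_add_distrib]
    refine Finset.sum_congr rfl (fun l hl => ?_)
    have := Finset.mem_range.1 hl
    rw [show a + 1 + l = a + l + 1 by ring, qn_succ,
      show 2 * j + 3 - l = 2 * j + 2 - l + 1 by omega,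
      show a + 1 + 2 * j + 2 - l = a + 2 * j + 3 - l by omega]
    module
  rw [h1, h2]
  abel

end Dat
end P066
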