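import Mathlib

/-!
# P066: the operators on functions of the colours of the active vertices

`Fin N` is the set of colours and `x : Fin N → A` their variables.
-/

namespace P066

set_option linter.unusedSimpArgs false
set_option linter.unnecessarySeqFocus false

open Finset

variable {A : Type*} [CommRing A] {N : ℕ} (q : A) (x : Fin N → A)

/-- `q^[a < b]` -/
def wq (a b : ℕ) : A := if a < b then q else 1

/-- the kernel `(q-1)[a<c] - [a=c]` -/
def kap (a c : ℕ) : A := if a < c then q - 1 else if a = c then -1 else 0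

/-- the transfer operator on functions of one colour -/
def R1 : (Fin N → A) →ₗ[A] (Fin N → A) where
  toFun F := fun c => x c * ∑ a : Fin N, kap q a c * F a
  map_add' F G := by
    ext c; simp only [Pi.add_apply, mul_add, Finset.sum_add_distrib]
  map_smul' r F := by
    ext c
    simp only [Pi.smul_apply, smul_eq_mul, RingHom.id_apply, Finset.mul_sum]
    exact Finset.sum_congr rfl (fun _ _ => by ring)

/-- add a vertex adjacent to the active vertex -/
def Dp : (Fin N → A) →ₗ[A] (Fin N → Fin N → A) where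
  toFun F := fun a b => if a = b then 0 else wq q a b * F a * x b
  map_add' F G := by
    ext a b; simp only [Pi.add_apply]; split_ifs <;> ring
  map_smul' r F := by
    ext a b; simp only [Pi.smul_apply, smul_eq_mul, RingHom.id_apply]; split_ifs <;> ring

/-- close the older of two active vertices -/
def Dm : (Fin N → Fin N → A) →ₗ[A] (Fin N → A) where
  toFun F := fun b => ∑ a, if a = b then 0 else F a b
  map_add' F G := by
    ext b; simp only [Pi.add_apply, ← Finset.sum_add_distrib]
    exact Finset.sum_congr rfl (fun _ _ => by split_ifs <;> ring)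
  map_smul' r F := by
    ext b; simp only [Pi.smul_apply, smul_eq_mul, RingHom.id_apply, Finset.mul_sum]
    exact Finset.sum_congr rfl (fun _ _ => by split_ifs <;> ring)

/-- close the only active vertex -/
def S1 : (Fin N → A) →ₗ[A] A where
  toFun F := ∑ a, F a
  map_add' F G := by simp only [Pi.add_apply, Finset.sum_add_distrib]
  map_smul' r F := by
    simp only [Pi.smul_apply, smul_eq_mul, RingHom.id_apply, Finset.mul_sum]

/-- the transfer operator on functions of two colours -/
def R2 : (Fin N → Fin N → A) →ₗ[A] (Fin N → Fin N → A) where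
  toFun F := fun b c => if b = c then 0 else
    x c * wq q b c * ∑ a, if a = b then 0 else kap q a c * F a b
  map_add' F G := by
    ext b c; simp only [Pi.add_apply]
    split_ifs
    · ring
    · rw [← mul_add, ← Finset.sum_add_distrib]
      congr 1
      exact Finset.sum_congr rfl (fun _ _ => by split_ifs <;> ring)
  map_smul' r F := by
    ext b c; simp only [Pi.smul_apply, smul_eq_mul, RingHom.id_apply]
    split_ifs
    · ring
    · have h : ∑ a : Fin N, (if a = b then 0 else kap q a c * (r * F a b)) =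
          r * ∑ a : Fin N, (if a = b then 0 else kap q a c * F a b) := by
        rw [Finset.mul_sum]
        exact Finset.sum_congr rfl (fun _ _ => by split_ifs <;> ring)
      rw [h]; ring

/-- the Hecke operator -/
def TT : (Fin N → Fin N → A) →ₗ[A] (Fin N → Fin N → A) where
  toFun F := fun a b => if a < b then (q - 1) * F a b + q * F b a else
    if b < a then F b a else q * F a b
  map_add' F G := by
    ext a b; simp only [Pi.add_apply]; split_ifs <;> ring
  map_smul' r F := by
    ext a b; simp only [Pi.smul_apply, smul_eq_mul, RingHom.id_apply]; split_ifs <;> ring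

theorem TT_quad (F : Fin N → Fin N → A) :
    TT q (TT q F) = (q - 1) • TT q F + q • F := by
  ext a b
  simp only [TT, LinearMap.coe_mk, AddHom.coe_mk, Pi.add_apply, Pi.smul_apply, smul_eq_mul]
  rcases lt_trichotomy a b with h | h | h
  · simp only [h, h.not_gt, if_true, if_false]
  · subst h; simp only [lt_irrefl, if_false]; ring
  · simp only [h, h.not_gt, if_true, if_false]

theorem TT_zero : TT q (Dp q x x) = q • Dp q x x := by
  ext a b
  simp only [TT, Dp, LinearMap.coe_mk, AddHom.coe_mk, Pi.smul_apply, smul_eq_mul, wq,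
    ← Fin.lt_def]
  rcases lt_trichotomy a b with h | h | h
  · simp only [h, h.not_gt, h.ne, h.ne', if_true, if_false]; ring
  · subst h; simp only [lt_irrefl, if_false, if_true]
  · simp only [h, h.not_gt, h.ne, h.ne', if_true, if_false]; ring

theorem Dm_Dp (G : Fin N → A) : Dm (Dp q x G) = R1 q x G + S1 G • x := by
  ext c
  simp only [Dm, Dp, R1, S1, LinearMap.coe_mk, AddHom.coe_mk, Pi.add_apply, Pi.smul_apply,
    smul_eq_mul, Finset.mul_sum, Finset.sum_mul, ← Finset.sum_add_distrib]
  refine Finset.sum_congr rfl (fun a _ => ?_)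
  unfold wq kap
  simp only [← Fin.lt_def, ← Fin.ext_iff]
  rcases lt_trichotomy a c with h | h | h
  · simp only [h, h.ne, if_true, if_false]; ring
  · subst h; simp only [lt_irrefl, if_false, if_true]; ring
  · simp only [h.not_gt, h.ne', if_false]; ring

theorem TT_Dp (G : Fin N → A) : TT q (Dp q x (R1 q x G)) = R2 q x (Dp q x G) := by
  ext b c
  simp only [TT, Dp, R1, R2, LinearMap.coe_mk, AddHom.coe_mk]
  rcases lt_trichotomy b c with h | h | h
  · simp only [h, h.not_gt, h.ne, h.ne', if_true, if_false, Finset.mul_sum, Finset.sum_mul,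
      ← Finset.sum_add_distrib]
    refine Finset.sum_congr rfl (fun a _ => ?_)
    unfold wq kap
    simp only [← Fin.lt_def, ← Fin.ext_iff, h, h.not_gt, if_true, if_false]
    rcases lt_trichotomy a b with h1 | h1 | h1
    · have h2 := h1.trans h
      simp only [h1, h2, h1.ne, if_true, if_false]; ring
    · subst h1; simp only [lt_irrefl, h, if_false, if_true]; ring
    · simp only [h1.not_gt, h1.ne', if_false]
      rcases lt_trichotomy a c with h3 | h3 | h3
      · simp only [h3, if_true]; ring
      · subst h3; simp only [lt_irrefl, if_false, if_true]; ring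
      · simp only [h3.not_gt, h3.ne', if_false]; ring
  · subst h; simp only [lt_irrefl, if_false, if_true]; simp
  · simp only [h, h.not_gt, h.ne, h.ne', if_true, if_false, Finset.mul_sum, Finset.sum_mul]
    refine Finset.sum_congr rfl (fun a _ => ?_)
    unfold wq kap
    simp only [← Fin.lt_def, ← Fin.ext_iff, h, h.not_gt, if_true, if_false]
    rcases lt_trichotomy a c with h1 | h1 | h1
    · have h2 := h1.trans h
      simp only [h1, h2, h2.ne, if_true, if_false]; ring
    · subst h1; simp only [lt_irrefl, h, h.ne, if_false, if_true]; ring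
    · simp only [h1.not_gt, h1.ne', if_false]
      split_ifs <;> ring

theorem mask_TT (F : Fin N → Fin N → A) (a d : Fin N) : (if a = d then 0 else TT q F a d) =
    (if (a : ℕ) < d then q - 1 else 0) * F a d +
      (if (a : ℕ) = d then 0 else wq q a d) * F d a := by
  simp only [TT, LinearMap.coe_mk, AddHom.coe_mk]
  unfold wq
  simp only [← Fin.lt_def, ← Fin.ext_iff]
  rcases lt_trichotomy a d with h | h | h
  · simp only [h, h.ne, if_true, if_false]
  · subst h; simp only [lt_irrefl, if_false, if_true]; ring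
  · simp only [h, h.not_gt, h.ne', if_true, if_false]; ring

/-- moving `T` from the function to the kernel -/
theorem sum_TT (F : Fin N → Fin N → A) (K : ℕ → ℕ → A) :
    ∑ d : Fin N, ∑ a : Fin N, (if a = d then 0 else K a d * TT q F a d) =
      ∑ b : Fin N, ∑ a : Fin N, ((if (a : ℕ) < b then (q - 1) * K a b else 0) +
        (if (a : ℕ) = b then 0 else wq q b a * K b a)) * F a b := by
  have h1 : ∀ d a : Fin N, (if a = d then 0 else K a d * TT q F a d) =
      (if (a : ℕ) < d then (q - 1) * K a d else 0) * F a d +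
        (if (a : ℕ) = d then 0 else wq q a d * K a d) * F d a := by
    intro d a
    have h := congrArg (fun t => K a d * t) (mask_TT q F a d)
    simp only [mul_ite, mul_zero] at h
    rw [h, mul_add]
    congr 1
    · split_ifs <;> ring
    · split_ifs <;> ring
  simp only [h1, add_mul, Finset.sum_add_distrib]
  congr 1
  rw [Finset.sum_comm]
  refine Finset.sum_congr rfl (fun b _ => Finset.sum_congr rfl (fun a _ => ?_))
  congr 1
  by_cases h : (a : ℕ) = b
  · simp [h]
  · simp [h, Ne.symm h]

theorem tri (a b : ℕ) :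
    (a < b ∧ (a < b) = True ∧ (a = b) = False ∧ (b < a) = False ∧ (b = a) = False) ∨
    (a = b ∧ (a < b) = False ∧ (a = b) = True ∧ (b < a) = False ∧ (b = a) = True) ∨
    (b < a ∧ (a < b) = False ∧ (a = b) = False ∧ (b < a) = True ∧ (b = a) = False) := by
  rcases lt_trichotomy a b with h | h | h
  · exact Or.inl ⟨h, eq_true h, eq_false h.ne, eq_false h.not_gt, eq_false h.ne'⟩
  · subst h
    exact Or.inr (Or.inl ⟨rfl, by simp, by simp, by simp, by simp⟩)
  · exact Or.inr (Or.inr ⟨h, eq_false h.not_gt, eq_false h.ne', eq_true h, eq_false h.ne⟩)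

theorem ker1 (a b c : ℕ) : (if b = c then 0 else wq q b c * (if a = b then 0 else kap q a c)) =
    (if a < b then (q - 1) * kap q b c else 0) + (if a = b then 0 else wq q b a * kap q a c) := by
  unfold wq kap
  rcases tri a b with ⟨h1, p1, p2, p3, p4⟩ | ⟨h1, p1, p2, p3, p4⟩ | ⟨h1, p1, p2, p3, p4⟩ <;>
  rcases tri a c with ⟨h2, s1, s2, s3, s4⟩ | ⟨h2, s1, s2, s3, s4⟩ | ⟨h2, s1, s2, s3, s4⟩ <;>
  rcases tri b c with ⟨h3, r1, r2, r3, r4⟩ | ⟨h3, r1, r2, r3, r4⟩ | ⟨h3, r1, r2, r3, r4⟩ <;>
    first
    | (exfalso; omega)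
    | (simp only [p1, p2, p3, p4, s1, s2, s3, s4, r1, r2, r3, r4, if_true, if_false] <;> ring)

/-- the kernel of the square of `R2` -/
def W (c d a b : ℕ) : A :=
  if b = c then 0 else if a = b then 0 else kap q b d * wq q b c * kap q a c

theorem ker2 (a b c d : ℕ) (h : c < d) : (q - 1) * W q c d a b + W q d c a b =
    (if a < b then (q - 1) * W q c d a b else 0) +
      (if a = b then 0 else wq q b a * W q c d b a) := by
  unfold W wq kap
  rcases tri a b with ⟨h1, p1, p2, p3, p4⟩ | ⟨h1, p1, p2, p3, p4⟩ | ⟨h1, p1, p2, p3, p4⟩ <;>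
  rcases tri a c with ⟨h2, s1, s2, s3, s4⟩ | ⟨h2, s1, s2, s3, s4⟩ | ⟨h2, s1, s2, s3, s4⟩ <;>
  rcases tri b c with ⟨h3, r1, r2, r3, r4⟩ | ⟨h3, r1, r2, r3, r4⟩ | ⟨h3, r1, r2, r3, r4⟩ <;>
    first
    | (exfalso; omega)
    | (rcases tri a d with ⟨h4, t1, t2, t3, t4⟩ | ⟨h4, t1, t2, t3, t4⟩ | ⟨h4, t1, t2, t3, t4⟩ <;>
       rcases tri b d with ⟨h5, u1, u2, u3, u4⟩ | ⟨h5, u1, u2, u3, u4⟩ | ⟨h5, u1, u2, u3, u4⟩ <;>
       first
       | (exfalso; omega)
       | (simp only [p1, p2, p3, p4, s1, s2, s3, s4, r1, r2, r3, r4, t1, t2, t3, t4,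
            u1, u2, u3, u4, if_true, if_false] <;> ring))

theorem ker3 (a b c d : ℕ) (h : d < c) : q * W q d c a b =
    (if a < b then (q - 1) * W q c d a b else 0) +
      (if a = b then 0 else wq q b a * W q c d b a) := by
  unfold W wq kap
  rcases tri a b with ⟨h1, p1, p2, p3, p4⟩ | ⟨h1, p1, p2, p3, p4⟩ | ⟨h1, p1, p2, p3, p4⟩ <;>
  rcases tri a c with ⟨h2, s1, s2, s3, s4⟩ | ⟨h2, s1, s2, s3, s4⟩ | ⟨h2, s1, s2, s3, s4⟩ <;>
  rcases tri b c with ⟨h3, r1, r2, r3, r4⟩ | ⟨h3, r1, r2, r3, r4⟩ | ⟨h3, r1, r2, r3, r4⟩ <;>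
    first
    | (exfalso; omega)
    | (rcases tri a d with ⟨h4, t1, t2, t3, t4⟩ | ⟨h4, t1, t2, t3, t4⟩ | ⟨h4, t1, t2, t3, t4⟩ <;>
       rcases tri b d with ⟨h5, u1, u2, u3, u4⟩ | ⟨h5, u1, u2, u3, u4⟩ | ⟨h5, u1, u2, u3, u4⟩ <;>
       first
       | (exfalso; omega)
       | (simp only [p1, p2, p3, p4, s1, s2, s3, s4, r1, r2, r3, r4, t1, t2, t3, t4,
            u1, u2, u3, u4, if_true, if_false] <;> ring))

theorem Dm_R2 (F : Fin N → Fin N → A) : Dm (R2 q x F) = R1 q x (Dm (TT q F)) := by
  ext c
  have h1 : R1 q x (Dm (TT q F)) c = x c * ∑ d : Fin N, ∑ a : Fin N,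
      (if a = d then 0 else kap q d c * TT q F a d) := by
    simp only [R1, Dm, LinearMap.coe_mk, AddHom.coe_mk, Finset.mul_sum, mul_ite, mul_zero]
  have h2 : Dm (R2 q x F) c = x c * ∑ b : Fin N, ∑ a : Fin N,
      (if (b : ℕ) = c then 0 else wq q b c * (if (a : ℕ) = b then 0 else kap q a c)) *
        F a b := by
    simp only [R2, Dm, LinearMap.coe_mk, AddHom.coe_mk, Finset.mul_sum]
    refine Finset.sum_congr rfl (fun b _ => ?_)
    by_cases h : b = c
    · simp [h]
    · have h' : ¬ ((b : ℕ) = c) := fun hh => h (Fin.ext hh)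
      simp only [h, h', if_false]
      refine Finset.sum_congr rfl (fun a _ => ?_)
      by_cases h3 : a = b
      · simp [h3]
      · have h3' : ¬ ((a : ℕ) = b) := fun hh => h3 (Fin.ext hh)
        simp only [h3, h3', if_false]; ring
  rw [h1, h2, sum_TT q F (fun _ d => kap q d c)]
  congr 1
  refine Finset.sum_congr rfl (fun b _ => Finset.sum_congr rfl (fun a _ => ?_))
  rw [ker1]

theorem R2_R2 (F : Fin N → Fin N → A) (c d : Fin N) : R2 q x (R2 q x F) c d =
    (if c = d then 0 else x c * x d * wq q c d) * ∑ b : Fin N, ∑ a : Fin N,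
      (W q c d a b * F a b) := by
  simp only [R2, LinearMap.coe_mk, AddHom.coe_mk]
  by_cases h : c = d
  · simp [h]
  · simp only [h, if_false, Finset.mul_sum]
    refine Finset.sum_congr rfl (fun b _ => ?_)
    unfold W
    by_cases h2 : b = c
    · simp [h2]
    · have h2' : ¬ ((b : ℕ) = c) := fun hh => h2 (Fin.ext hh)
      simp only [h2, h2', if_false, Finset.mul_sum]
      refine Finset.sum_congr rfl (fun a _ => ?_)
      by_cases h3 : a = b
      · simp [h3]
      · have h3' : ¬ ((a : ℕ) = b) := fun hh => h3 (Fin.ext hh)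
        simp only [h3, h3', if_false]; ring

theorem TT_R2 (F : Fin N → Fin N → A) :
    TT q (R2 q x (R2 q x F)) = R2 q x (R2 q x (TT q F)) := by
  ext c d
  have h0 : ∀ c d : Fin N, ∑ b : Fin N, ∑ a : Fin N, (W q c d a b * TT q F a b) =
      ∑ b : Fin N, ∑ a : Fin N, ((if (a : ℕ) < b then (q - 1) * W q c d a b else 0) +
        (if (a : ℕ) = b then 0 else wq q b a * W q c d b a)) * F a b := by
    intro c d
    rw [← sum_TT q F (fun a b => W q c d a b)]
    refine Finset.sum_congr rfl (fun b _ => Finset.sum_congr rfl (fun a _ => ?_))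
    by_cases h3 : a = b
    · simp only [h3, if_true, W, if_true]; simp
    · simp only [h3, if_false]
  rw [R2_R2, h0]
  simp only [TT, LinearMap.coe_mk, AddHom.coe_mk]
  rw [R2_R2, R2_R2]
  rcases lt_trichotomy c d with h | h | h
  · simp only [h, h.ne, h.ne', h.not_gt, if_true, if_false, wq, ← Fin.lt_def]
    have h4 : ∑ b : Fin N, ∑ a : Fin N, ((if a < b then (q - 1) * W q c d a b else 0) +
        (if (a : ℕ) = b then 0 else (if b < a then q else 1) * W q c d b a)) * F a b =
        (q - 1) * (∑ b : Fin N, ∑ a : Fin N, W q c d a b * F a b) +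
          ∑ b : Fin N, ∑ a : Fin N, W q d c a b * F a b := by
      simp only [Finset.mul_sum, ← Finset.sum_add_distrib]
      refine Finset.sum_congr rfl (fun b _ => Finset.sum_congr rfl (fun a _ => ?_))
      have := ker2 q a b c d h
      simp only [wq, ← Fin.lt_def] at this
      rw [← this]; ring
    rw [h4]; ring
  · subst h; simp
  · simp only [h, h.ne, h.ne', h.not_gt, if_true, if_false, wq, ← Fin.lt_def]
    have h4 : ∑ b : Fin N, ∑ a : Fin N, ((if a < b then (q - 1) * W q c d a b else 0) +
        (if (a : ℕ) = b then 0 else (if b < a then q else 1) * W q c d b a)) * F a b =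
        q * (∑ b : Fin N, ∑ a : Fin N, W q d c a b * F a b) := by
      simp only [Finset.mul_sum]
      refine Finset.sum_congr rfl (fun b _ => Finset.sum_congr rfl (fun a _ => ?_))
      have := ker3 q a b c d h
      simp only [wq, ← Fin.lt_def] at this
      rw [← this]; ring
    rw [h4]; ring

end P066
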