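import Mathlib
import Vale.Agent.P066.Rel
import Vale.Agent.P066.Alg

/-!
# P066: the functions `U_a` of one colour and the concrete instance of the algebra
-/

namespace P066

open Finset Polynomial

variable {A : Type*} [CommRing A] {N : ℕ} (q : A) (x : Fin N → A)

/-- elementary symmetric function of the `x i` -/
def ee (k : ℕ) : A := ∑ t ∈ powersetCard k (univ : Finset (Fin N)), ∏ i ∈ t, x i

/-- `∏ (1 + q^[s<j] x_s z)` -/
noncomputable def GG (j : ℕ) : A[X] :=
  ∏ s : Fin N, (1 + C ((if (s : ℕ) < j then q else 1) * x s) * X)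

/-- `∏_{s ≠ c} (1 + q^[s<c] x_s z)` -/
noncomputable def RR (c : Fin N) : A[X] :=
  ∏ s ∈ univ.erase c, (1 + C ((if (s : ℕ) < c then q else 1) * x s) * X)

/-- the function `U_a` -/
noncomputable def UU (a : ℕ) (c : Fin N) : A := x c * (RR q x c).coeff a

theorem GG_self (c : Fin N) : GG q x c = (1 + C (x c) * X) * RR q x c := by
  unfold GG RR
  rw [← Finset.mul_prod_erase univ _ (mem_univ c)]
  simp

theorem GG_succ (c : Fin N) : GG q x (c + 1) = (1 + C (q * x c) * X) * RR q x c := by
  unfold GG RR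
  rw [← Finset.mul_prod_erase univ _ (mem_univ c)]
  simp only [Nat.lt_succ_self, if_true]
  congr 1
  refine Finset.prod_congr rfl (fun s hs => ?_)
  have h : (s : ℕ) ≠ c := fun h => (Finset.mem_erase.1 hs).1 (Fin.ext h)
  have h2 : ((s : ℕ) < (c : ℕ) + 1) ↔ ((s : ℕ) < c) := by omega
  simp only [h2]

theorem prod_coeff (y : Fin N → A) (k : ℕ) :
    (∏ s : Fin N, (1 + C (y s) * X)).coeff k = ee y k := by
  have h : ∏ s : Fin N, (1 + C (y s) * X) =
      ∑ t ∈ (univ : Finset (Fin N)).powerset, C (∏ i ∈ t, y i) * X ^ t.card := by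
    rw [Finset.prod_one_add]
    refine Finset.sum_congr rfl (fun t _ => ?_)
    rw [Finset.prod_mul_distrib, Finset.prod_const, map_prod]
  rw [h, finset_sum_coeff]
  simp only [coeff_C_mul, coeff_X_pow, mul_ite, mul_one, mul_zero]
  unfold ee
  rw [← Finset.sum_filter]
  refine Finset.sum_congr ?_ (fun _ _ => rfl)
  ext t
  simp only [mem_filter, mem_powerset, mem_powersetCard]
  constructor
  · rintro ⟨h1, h2⟩; exact ⟨h1, h2.symm⟩
  · rintro ⟨h1, h2⟩; exact ⟨h1, h2.symm⟩

theorem GG_zero_coeff (k : ℕ) : (GG q x 0).coeff k = ee x k := by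
  unfold GG
  simp only [Nat.not_lt_zero, if_false, one_mul]
  exact prod_coeff x k

theorem GG_last_coeff (k : ℕ) : (GG q x N).coeff k = q ^ k * ee x k := by
  unfold GG
  simp only [Fin.is_lt, if_true]
  rw [prod_coeff (fun s => q * x s) k]
  unfold ee
  rw [Finset.mul_sum]
  refine Finset.sum_congr rfl (fun t ht => ?_)
  rw [Finset.prod_mul_distrib, Finset.prod_const, (mem_powersetCard.1 ht).2]

theorem telescope (j : ℕ) (hj : j ≤ N) :
    ∑ c : Fin N, (if (c : ℕ) < j then C ((q - 1) * x c) * X * RR q x c else 0) =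
      GG q x j - GG q x 0 := by
  induction j with
  | zero => simp
  | succ j ih =>
    have hj' : j < N := hj
    have h1 : ∀ c : Fin N, (if (c : ℕ) < j + 1 then C ((q - 1) * x c) * X * RR q x c else 0) =
        (if (c : ℕ) < j then C ((q - 1) * x c) * X * RR q x c else 0) +
          (if c = ⟨j, hj'⟩ then C ((q - 1) * x c) * X * RR q x c else 0) := by
      intro c
      rcases lt_trichotomy (c : ℕ) j with h | h | h
      · have h2 : ¬ (c = ⟨j, hj'⟩) := fun hh => by rw [hh] at h; simp at h
        have h3 : (c : ℕ) < j + 1 := by omega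
        simp [h, h2, h3]
      · have h2 : c = ⟨j, hj'⟩ := Fin.ext h
        have h3 : (c : ℕ) < j + 1 := by omega
        simp [h2]
      · have h2 : ¬ (c = ⟨j, hj'⟩) := fun hh => by rw [hh] at h; simp at h
        have h3 : ¬ ((c : ℕ) < j + 1) := by omega
        have h4 : ¬ ((c : ℕ) < j) := by omega
        simp [h2, h3, h4]
    simp only [h1, Finset.sum_add_distrib]
    rw [ih (by omega)]
    simp only [Finset.sum_ite_eq', mem_univ, if_true]
    have h5 := GG_self q x ⟨j, hj'⟩
    have h6 := GG_succ q x ⟨j, hj'⟩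
    simp only at h5 h6
    rw [h5, h6]
    simp only [map_mul, map_sub, map_one]
    ring

theorem coeff_telescope (j : ℕ) (hj : j ≤ N) (a : ℕ) :
    (q - 1) * ∑ c : Fin N, (if (c : ℕ) < j then UU q x a c else 0) =
      (GG q x j).coeff (a + 1) - ee x (a + 1) := by
  have h := congrArg (fun p => p.coeff (a + 1)) (telescope q x j hj)
  simp only [finset_sum_coeff, coeff_sub, GG_zero_coeff] at h
  rw [← h, Finset.mul_sum]
  refine Finset.sum_congr rfl (fun c _ => ?_)
  split_ifs
  · rw [mul_assoc (C ((q - 1) * x c)), coeff_C_mul, coeff_X_mul]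
    unfold UU; ring
  · simp

theorem R1_apply (F : Fin N → A) (c : Fin N) : R1 q x F c =
    x c * ((q - 1) * ∑ a : Fin N, (if (a : ℕ) < c then F a else 0) - F c) := by
  simp only [R1, LinearMap.coe_mk, AddHom.coe_mk]
  congr 1
  have h : ∀ a : Fin N, kap q a c * F a = (q - 1) * (if (a : ℕ) < c then F a else 0) -
      (if a = c then F a else 0) := by
    intro a
    unfold kap
    rcases lt_trichotomy (a : ℕ) c with h | h | h
    · have h2 : ¬ (a = c) := fun hh => by rw [hh] at h; simp at h
      simp [h, h2]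
    · have h2 : a = c := Fin.ext h
      simp [h2]
    · have h2 : ¬ (a = c) := fun hh => by rw [hh] at h; simp at h
      have h3 : ¬ ((a : ℕ) < c) := by omega
      have h4 : ¬ ((a : ℕ) = c) := by omega
      simp [h2, h3, h4]
  simp only [h, Finset.sum_sub_distrib, Finset.mul_sum, Finset.sum_ite_eq', mem_univ, if_true]

theorem UU_succ (a : ℕ) : UU q x (a + 1) = R1 q x (UU q x a) + ee x (a + 1) • UU q x 0 := by
  ext c
  rw [Pi.add_apply, Pi.smul_apply, R1_apply, coeff_telescope q x c c.2.le a, GG_self]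
  have h0 : (RR q x c).coeff 0 = 1 := by
    unfold RR
    rw [coeff_zero_prod]
    simp
  have h1 : ((1 + C (x c) * X) * RR q x c).coeff (a + 1) =
      (RR q x c).coeff (a + 1) + x c * (RR q x c).coeff a := by
    rw [add_mul, one_mul, coeff_add, mul_assoc, coeff_C_mul, coeff_X_mul]
  rw [h1]
  simp only [UU, h0, smul_eq_mul]
  ring

theorem UU_zero : UU q x 0 = x := by
  ext c
  have h0 : (RR q x c).coeff 0 = 1 := by
    unfold RR
    rw [coeff_zero_prod]
    simp
  simp [UU, h0]

theorem qn_geom (m : ℕ) : (q - 1) * qn q m = q ^ m - 1 := by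
  unfold qn
  rw [mul_geom_sum]

theorem S1_UU [IsDomain A] (hq : q ≠ 1) (a : ℕ) :
    S1 (UU q x a) = qn q (a + 1) * ee x (a + 1) := by
  have h := coeff_telescope q x N le_rfl a
  simp only [Fin.is_lt, if_true, GG_last_coeff] at h
  have h2 : (q - 1) * S1 (UU q x a) = (q - 1) * (qn q (a + 1) * ee x (a + 1)) := by
    rw [← mul_assoc, qn_geom]
    simp only [S1, LinearMap.coe_mk, AddHom.coe_mk]
    rw [h]; ring
  exact mul_left_cancel₀ (sub_ne_zero.2 hq) h2

theorem ee_zero : ee x 0 = 1 := by simp [ee]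

/-- the concrete instance -/
noncomputable def DC [IsDomain A] (hq : q ≠ 1) :
    Dat A (Fin N → A) (Fin N → Fin N → A) where
  q := q
  e := ee x
  e0 := ee_zero x
  r1 := R1 q x
  r2 := R2 q x
  dp := Dp q x
  dm := Dm
  T := TT q
  s := S1
  U := UU q x
  quad := TT_quad q
  comm := TT_R2 q x
  dmr := Dm_R2 q x
  Tdr := TT_Dp q x
  T0 := by rw [UU_zero]; exact TT_zero q x
  U1 := UU_succ q x
  sU := S1_UU q x hq
  B1 := fun G => by rw [UU_zero]; exact Dm_Dp q x G

end P066
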