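import Mathlib
import Vale.Agent.P066.UFun

/-!
# P066: cones of positive families, uniformly in the number of variables
-/

namespace P066

open Finset

/-- polynomials in `N` variables over `ℤ[q]` -/
abbrev AN (N : ℕ) : Type := MvPolynomial (Fin N) (Polynomial ℤ)

/-- the parameter -/
noncomputable def qN (N : ℕ) : AN N := MvPolynomial.C Polynomial.X

/-- the variables -/
noncomputable def xN (N : ℕ) : Fin N → AN N := fun i => MvPolynomial.X i

/-- `e_s` for a multiset `s` -/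
noncomputable def mon (s : Multiset ℕ) (N : ℕ) : AN N := (s.map (fun k => ee (xN N) k)).prod

theorem mon_add (s s' : Multiset ℕ) (N : ℕ) : mon (s + s') N = mon s N * mon s' N := by
  unfold mon
  rw [Multiset.map_add, Multiset.prod_add]

theorem qN_ne (N : ℕ) : qN N ≠ 1 := by
  intro h
  have h2 : (MvPolynomial.C Polynomial.X : AN N) = MvPolynomial.C 1 := by
    rw [MvPolynomial.C_1]; exact h
  have h3 := MvPolynomial.C_injective _ _ h2
  rw [← Polynomial.C_1] at h3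
  exact Polynomial.X_ne_C 1 h3

/-- the concrete data in `N` variables -/
noncomputable def DN (N : ℕ) : Dat (AN N) (Fin N → AN N) (Fin N → Fin N → AN N) :=
  DC (qN N) (xN N) (qN_ne N)

section general

variable {W W' : ℕ → Type} [∀ N, AddCommGroup (W N)] [∀ N, Module (AN N) (W N)]
  [∀ N, AddCommGroup (W' N)] [∀ N, Module (AN N) (W' N)]

/-- positive combinations of the generators -/
noncomputable def Kg (Gen : ℕ → (∀ N, W N) → Prop) (n : ℕ) : AddSubmonoid (∀ N, W N) :=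
  AddSubmonoid.closure {F | ∃ (i : ℕ) (s : Multiset ℕ) (d : ℕ) (G : ∀ N, W N),
    Gen d G ∧ s.sum + d = n ∧ F = fun N => (qN N ^ i * mon s N) • G N}

/-- generator for scalars -/
def Gen0 (d : ℕ) (G : ∀ N, AN N) : Prop := d = 0 ∧ G = fun _ => 1

theorem Kg_gen {Gen : ℕ → (∀ N, W N) → Prop} {d : ℕ} {G : ∀ N, W N} (h : Gen d G) :
    G ∈ Kg Gen d := by
  refine AddSubmonoid.subset_closure ⟨0, 0, d, G, h, by simp, ?_⟩
  ext N; simp [mon]

theorem Kg_sum {Gen : ℕ → (∀ N, W N) → Prop} {n : ℕ} {ι : Type} (s : Finset ι)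
    (f : ι → ∀ N, W N) (h : ∀ i ∈ s, f i ∈ Kg Gen n) :
    (fun N => ∑ i ∈ s, f i N) ∈ Kg Gen n := by
  have : (fun N => ∑ i ∈ s, f i N) = ∑ i ∈ s, f i := by
    ext N; simp
  rw [this]
  exact AddSubmonoid.sum_mem _ h

theorem Kg_add {Gen : ℕ → (∀ N, W N) → Prop} {n : ℕ} {F G : ∀ N, W N}
    (hF : F ∈ Kg Gen n) (hG : G ∈ Kg Gen n) : (fun N => F N + G N) ∈ Kg Gen n :=
  AddSubmonoid.add_mem _ hF hG

theorem Kg_smul_mon {Gen : ℕ → (∀ N, W N) → Prop} {n : ℕ} {F : ∀ N, W N}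
    (hF : F ∈ Kg Gen n) (i : ℕ) (s : Multiset ℕ) :
    (fun N => (qN N ^ i * mon s N) • F N) ∈ Kg Gen (s.sum + n) := by
  induction hF using AddSubmonoid.closure_induction with
  | mem F h =>
    obtain ⟨i', s', d, G, hG, hd, rfl⟩ := h
    refine AddSubmonoid.subset_closure ⟨i + i', s + s', d, G, hG, ?_, ?_⟩
    · rw [Multiset.sum_add]; omega
    · ext1 N
      rw [smul_smul, mon_add, pow_add, mul_mul_mul_comm]
  | zero =>
    have : (fun N => (qN N ^ i * mon s N) • (0 : ∀ N, W N) N) = 0 := by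
      ext N; simp
    rw [this]; exact AddSubmonoid.zero_mem _
  | add F G _ _ h1 h2 =>
    have : (fun N => (qN N ^ i * mon s N) • (F + G) N) =
        (fun N => (qN N ^ i * mon s N) • F N) + (fun N => (qN N ^ i * mon s N) • G N) := by
      ext N; simp
    rw [this]; exact AddSubmonoid.add_mem _ h1 h2

theorem Kg_smul {Gen : ℕ → (∀ N, W N) → Prop} {m n : ℕ} {p : ∀ N, AN N} {F : ∀ N, W N}
    (hp : p ∈ Kg Gen0 m) (hF : F ∈ Kg Gen n) :
    (fun N => p N • F N) ∈ Kg Gen (m + n) := by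
  induction hp using AddSubmonoid.closure_induction with
  | mem p h =>
    obtain ⟨i, s, d, G, ⟨hd0, hG⟩, hd, rfl⟩ := h
    subst hG
    have := Kg_smul_mon hF i s
    have h2 : s.sum = m := by omega
    rw [h2] at this
    simpa using this
  | zero =>
    have : (fun N => (0 : ∀ N, AN N) N • F N) = 0 := by
      ext N; simp
    rw [this]; exact AddSubmonoid.zero_mem _
  | add p p' _ _ h1 h2 =>
    have : (fun N => (p + p') N • F N) = (fun N => p N • F N) + (fun N => p' N • F N) := by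
      ext N; simp [add_smul]
    rw [this]; exact AddSubmonoid.add_mem _ h1 h2

theorem Kg_map {Gen : ℕ → (∀ N, W N) → Prop} {Gen' : ℕ → (∀ N, W' N) → Prop}
    (Φ : ∀ N, W N →ₗ[AN N] W' N) (δ : ℕ)
    (h : ∀ d G, Gen d G → (fun N => Φ N (G N)) ∈ Kg Gen' (d + δ)) {n : ℕ} {F : ∀ N, W N}
    (hF : F ∈ Kg Gen n) : (fun N => Φ N (F N)) ∈ Kg Gen' (n + δ) := by
  induction hF using AddSubmonoid.closure_induction with
  | mem F hF =>
    obtain ⟨i, s, d, G, hG, hd, rfl⟩ := hF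
    have h1 := Kg_smul_mon (h d G hG) i s
    have h2 : s.sum + (d + δ) = n + δ := by omega
    rw [h2] at h1
    simpa using h1
  | zero =>
    have : (fun N => Φ N ((0 : ∀ N, W N) N)) = 0 := by
      ext N; simp
    rw [this]; exact AddSubmonoid.zero_mem _
  | add F G _ _ h1 h2 =>
    have : (fun N => Φ N ((F + G) N)) = (fun N => Φ N (F N)) + (fun N => Φ N (G N)) := by
      ext N; simp
    rw [this]; exact AddSubmonoid.add_mem _ h1 h2

end general

/-! ### positive scalars -/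

theorem pos_one : (fun _ => 1 : ∀ N, AN N) ∈ Kg Gen0 0 := Kg_gen ⟨rfl, rfl⟩

theorem pos_mul {m n : ℕ} {p r : ∀ N, AN N} (hp : p ∈ Kg Gen0 m) (hr : r ∈ Kg Gen0 n) :
    (fun N => p N * r N) ∈ Kg Gen0 (m + n) := by
  have := Kg_smul hp hr
  simpa using this

theorem pos_pow (i : ℕ) : (fun N => qN N ^ i : ∀ N, AN N) ∈ Kg Gen0 0 := by
  refine AddSubmonoid.subset_closure ⟨i, 0, 0, fun _ => 1, ⟨rfl, rfl⟩, by simp, ?_⟩
  ext N; simp [mon]

theorem pos_qn (m : ℕ) : (fun N => qn (qN N) m : ∀ N, AN N) ∈ Kg Gen0 0 :=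
  Kg_sum _ (fun i N => qN N ^ i) (fun i _ => pos_pow i)

theorem pos_e (k : ℕ) : (fun N => ee (xN N) k : ∀ N, AN N) ∈ Kg Gen0 k := by
  refine AddSubmonoid.subset_closure ⟨0, {k}, 0, fun _ => 1, ⟨rfl, rfl⟩, by simp, ?_⟩
  ext N; simp [mon]

theorem pos_coef (i m k : ℕ) :
    (fun N => qN N ^ i * qn (qN N) m * ee (xN N) k : ∀ N, AN N) ∈ Kg Gen0 k := by
  have := pos_mul (pos_mul (pos_pow i) (pos_qn m)) (pos_e k)
  simpa using this

/-! ### generators for one and two active vertices -/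

/-- one active vertex -/
def Gen1 (d : ℕ) (G : ∀ N, Fin N → AN N) : Prop :=
  ∃ a, d = a + 1 ∧ G = fun N => (DN N).U a

/-- two active vertices -/
def Gen2 (d : ℕ) (G : ∀ N, Fin N → Fin N → AN N) : Prop :=
  (∃ k, d = k + 2 ∧ G = fun N => (DN N).DD k) ∨
  (∃ a j, d = a + 2 * j + 3 ∧ G = fun N => (DN N).Xe (a + 1) j) ∨
  (∃ a j, d = a + 2 * j + 4 ∧ G = fun N => (DN N).Xo (a + 1) j)

theorem U_mem (a : ℕ) : (fun N => (DN N).U a) ∈ Kg Gen1 (a + 1) := Kg_gen ⟨a, rfl, rfl⟩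

theorem eU_mem (i m k a n : ℕ) (h : k + a + 1 = n) :
    (fun N => (qN N ^ i * qn (qN N) m * ee (xN N) k) • (DN N).U a) ∈ Kg Gen1 n := by
  have := Kg_smul (pos_coef i m k) (U_mem a)
  rwa [show k + (a + 1) = n by omega] at this

theorem dpU_mem (a : ℕ) : (fun N => (DN N).dp ((DN N).U a)) ∈ Kg Gen2 (a + 2) := by
  cases a with
  | zero => exact Kg_gen (Or.inl ⟨0, rfl, rfl⟩)
  | succ a => exact Kg_gen (Or.inr (Or.inl ⟨a, 0, by ring, rfl⟩))

theorem edpU_mem (i m k a n : ℕ) (h : k + a + 2 = n) :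
    (fun N => (qN N ^ i * qn (qN N) m * ee (xN N) k) • (DN N).dp ((DN N).U a)) ∈ Kg Gen2 n := by
  have := Kg_smul (pos_coef i m k) (dpU_mem a)
  rwa [show k + (a + 2) = n by omega] at this

/-- closing the only active vertex -/
theorem step_S1 {n : ℕ} {F : ∀ N, Fin N → AN N} (hF : F ∈ Kg Gen1 n) :
    (fun N => S1 (F N)) ∈ Kg Gen0 n := by
  refine Kg_map (fun N => S1) 0 ?_ hF
  rintro d G ⟨a, rfl, rfl⟩
  have h : (fun N => S1 ((DN N).U a)) = fun N => qN N ^ 0 * qn (qN N) (a + 1) *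
      ee (xN N) (a + 1) := by
    ext1 N
    have := (DN N).sU a
    simp only [pow_zero, one_mul]
    exact this
  rw [h]
  exact pos_coef 0 (a + 1) (a + 1)

/-- adding an isolated vertex and making it active -/
theorem step_D0 {n : ℕ} {p : ∀ N, AN N} (hp : p ∈ Kg Gen0 n) :
    (fun N => p N • xN N) ∈ Kg Gen1 (n + 1) := by
  have := Kg_smul hp (U_mem 0)
  have h : ∀ N, (DN N).U 0 = xN N := fun N => UU_zero (qN N) (xN N)
  simpa [h] using this

/-- adding a vertex adjacent to the active vertex -/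
theorem step_Dp {n : ℕ} {F : ∀ N, Fin N → AN N} (hF : F ∈ Kg Gen1 n) :
    (fun N => Dp (qN N) (xN N) (F N)) ∈ Kg Gen2 (n + 1) := by
  refine Kg_map (fun N => Dp (qN N) (xN N)) 1 ?_ hF
  rintro d G ⟨a, rfl, rfl⟩
  exact dpU_mem a

/-- closing the older of two active vertices -/
theorem step_Dm {n : ℕ} {F : ∀ N, Fin N → Fin N → AN N} (hF : F ∈ Kg Gen2 n) :
    (fun N => Dm (F N)) ∈ Kg Gen1 n := by
  refine Kg_map (fun N => Dm) 0 ?_ hF
  rintro d G (⟨k, rfl, rfl⟩ | ⟨a, j, rfl, rfl⟩ | ⟨a, j, rfl, rfl⟩)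
  · have h : (fun N => Dm ((DN N).DD k)) = fun N => (qN N ^ 0 * qn (qN N) (k + 1) *
        ee (xN N) 0) • (DN N).U (k + 1) := by
      ext1 N
      have := (DN N).dmDD k
      simp only [pow_zero, one_mul, ee_zero, mul_one]
      exact this
    rw [h]
    exact eU_mem _ _ _ _ _ (by ring)
  · have h : (fun N => Dm ((DN N).Xe (a + 1) j)) = fun N => (DN N).Ee (a + 1) j := by
      ext1 N
      exact ((DN N).dmX j (a + 1)).1
    rw [h]
    unfold Dat.Ee
    refine Kg_add ?_ ?_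
    · refine Kg_sum _ (fun l N => (qN N ^ l * qn (qN N) (2 * j + 1 - l) * ee (xN N) l) •
        (DN N).U (a + 1 + 2 * j + 1 - l)) (fun l hl => eU_mem _ _ _ _ _ ?_)
      have := Finset.mem_range.1 hl
      omega
    · refine Kg_sum _ (fun l N => (qN N ^ (2 * j + 1 - l) * qn (qN N) (a + 1 + l) *
        ee (xN N) (a + 1 + 2 * j + 1 - l)) • (DN N).U l) (fun l hl => eU_mem _ _ _ _ _ ?_)
      have := Finset.mem_range.1 hl
      omega
  · have h : (fun N => Dm ((DN N).Xo (a + 1) j)) = fun N => (DN N).Eo (a + 1) j := by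
      ext1 N
      exact ((DN N).dmX j (a + 1)).2
    rw [h]
    unfold Dat.Eo
    refine Kg_add ?_ ?_
    · refine Kg_sum _ (fun l N => (qN N ^ l * qn (qN N) (2 * j + 2 - l) * ee (xN N) l) •
        (DN N).U (a + 1 + 2 * j + 2 - l)) (fun l hl => eU_mem _ _ _ _ _ ?_)
      have := Finset.mem_range.1 hl
      omega
    · refine Kg_sum _ (fun l N => (qN N ^ (2 * j + 2 - l) * qn (qN N) (a + 1 + l) *
        ee (xN N) (a + 1 + 2 * j + 2 - l)) • (DN N).U l) (fun l hl => eU_mem _ _ _ _ _ ?_)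
      have := Finset.mem_range.1 hl
      omega

/-- adding a vertex adjacent to both active vertices and closing the oldest -/
theorem step_B {n : ℕ} {F : ∀ N, Fin N → Fin N → AN N} (hF : F ∈ Kg Gen2 n) :
    (fun N => R2 (qN N) (xN N) (F N) + Dp (qN N) (xN N) (Dm (F N))) ∈ Kg Gen2 (n + 1) := by
  refine Kg_map (fun N => R2 (qN N) (xN N) + (Dp (qN N) (xN N)).comp Dm) 1 ?_ hF
  rintro d G (⟨k, rfl, rfl⟩ | ⟨a, j, rfl, rfl⟩ | ⟨a, j, rfl, rfl⟩)
  · have h : (fun N => (R2 (qN N) (xN N) + (Dp (qN N) (xN N)).comp Dm) ((DN N).DD k)) =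
        fun N => (DN N).DD (k + 1) + (qN N ^ 1 * qn (qN N) k * ee (xN N) 0) •
          (DN N).dp ((DN N).U (k + 1)) := by
      ext1 N
      have := (DN N).BDD k
      simp only [pow_one, ee_zero, mul_one]
      exact this
    rw [h]
    exact Kg_add (Kg_gen (Or.inl ⟨k + 1, by ring, rfl⟩)) (edpU_mem _ _ _ _ _ (by ring))
  · have h : (fun N => (R2 (qN N) (xN N) + (Dp (qN N) (xN N)).comp Dm)
        ((DN N).Xe (a + 1) j)) = fun N => (DN N).Xo (a + 1) j
          + ∑ l ∈ range (j + 1), (qN N ^ (l + 1) * qn (qN N) (2 * j - l) * ee (xN N) l) •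
              (DN N).dp ((DN N).U (a + 2 * j + 2 - l))
          + ∑ l ∈ range (j + 1), (qN N ^ (2 * j + 2 - l) * qn (qN N) (a + l) *
              ee (xN N) (a + 2 * j + 2 - l)) • (DN N).dp ((DN N).U l) := by
      ext1 N
      exact (DN N).BXe a j
    rw [h]
    refine Kg_add (Kg_add (Kg_gen (Or.inr (Or.inr ⟨a, j, by ring, rfl⟩))) ?_) ?_
    · refine Kg_sum _ (fun l N => (qN N ^ (l + 1) * qn (qN N) (2 * j - l) * ee (xN N) l) •
              (DN N).dp ((DN N).U (a + 2 * j + 2 - l))) (fun l hl => edpU_mem _ _ _ _ _ ?_)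
      have := Finset.mem_range.1 hl
      omega
    · refine Kg_sum _ (fun l N => (qN N ^ (2 * j + 2 - l) * qn (qN N) (a + l) *
              ee (xN N) (a + 2 * j + 2 - l)) • (DN N).dp ((DN N).U l))
              (fun l hl => edpU_mem _ _ _ _ _ ?_)
      have := Finset.mem_range.1 hl
      omega
  · have h : (fun N => (R2 (qN N) (xN N) + (Dp (qN N) (xN N)).comp Dm)
        ((DN N).Xo (a + 1) j)) = fun N => (DN N).Xe (a + 1) (j + 1)
          + ∑ l ∈ range (j + 2), (qN N ^ (l + 1) * qn (qN N) (2 * j + 1 - l) * ee (xN N) l) •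
              (DN N).dp ((DN N).U (a + 2 * j + 3 - l))
          + ∑ l ∈ range (j + 1), (qN N ^ (2 * j + 3 - l) * qn (qN N) (a + l) *
              ee (xN N) (a + 2 * j + 3 - l)) • (DN N).dp ((DN N).U l) := by
      ext1 N
      exact (DN N).BXo a j
    rw [h]
    refine Kg_add (Kg_add (Kg_gen (Or.inr (Or.inl ⟨a, j + 1, by ring, rfl⟩))) ?_) ?_
    · refine Kg_sum _ (fun l N => (qN N ^ (l + 1) * qn (qN N) (2 * j + 1 - l) *
              ee (xN N) l) • (DN N).dp ((DN N).U (a + 2 * j + 3 - l)))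
              (fun l hl => edpU_mem _ _ _ _ _ ?_)
      have := Finset.mem_range.1 hl
      omega
    · refine Kg_sum _ (fun l N => (qN N ^ (2 * j + 3 - l) * qn (qN N) (a + l) *
              ee (xN N) (a + 2 * j + 3 - l)) • (DN N).dp ((DN N).U l))
              (fun l hl => edpU_mem _ _ _ _ _ ?_)
      have := Finset.mem_range.1 hl
      omega

end P066
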