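import Mathlib

/-!
# P066: definitions

The vertices `1, ..., n` of the problem are represented by `Fin n`, the vertex `a : Fin n`
standing for `a + 1`.
-/

namespace P066

open Finset

/-- `h` is weakly increasing on `1, ..., n` with `i ≤ h i ≤ n`. -/
structure IsHess (n : ℕ) (h : ℕ → ℕ) : Prop where
  le : ∀ i, 1 ≤ i → i ≤ n → i ≤ h i
  bd : ∀ i, 1 ≤ i → i ≤ n → h i ≤ n
  mono : ∀ i j, 1 ≤ i → i ≤ j → j ≤ n → h i ≤ h j

/-- `{a, b}` with `a < b` is an edge: in the numbering `1, ..., n` this is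
`(a + 1) < (b + 1) ≤ h (a + 1)`. -/
def Adj (h : ℕ → ℕ) (a b : ℕ) : Prop := a < b ∧ b + 1 ≤ h (a + 1)

instance (h : ℕ → ℕ) (a b : ℕ) : Decidable (Adj h a b) := by unfold Adj; infer_instance

/-- proper colourings `Fin n → Fin N` -/
def IsProper (h : ℕ → ℕ) {n N : ℕ} (f : Fin n → Fin N) : Prop :=
  ∀ a b : Fin n, Adj h a b → f a ≠ f b

instance (h : ℕ → ℕ) {n N : ℕ} (f : Fin n → Fin N) : Decidable (IsProper h f) := by
  unfold IsProper; infer_instance

/-- the number of edges `{a, b}` with `a < b` and `f a < f b` -/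
def asc (h : ℕ → ℕ) {n N : ℕ} (f : Fin n → Fin N) : ℕ :=
  (univ.filter (fun p : Fin n × Fin n => Adj h p.1 p.2 ∧ f p.1 < f p.2)).card

/-- The chromatic quasisymmetric function in `N` variables, with coefficients in `ℤ[q]`
(`q` is `Polynomial.X`). -/
noncomputable def chrom (h : ℕ → ℕ) (n N : ℕ) : MvPolynomial (Fin N) (Polynomial ℤ) :=
  ∑ f : Fin n → Fin N, if IsProper h f then
    MvPolynomial.C (Polynomial.X ^ asc h f) * ∏ a, MvPolynomial.X (f a) else 0

/-- `e_λ` in `N` variables -/
noncomputable def eLam {n : ℕ} (μ : n.Partition) (N : ℕ) :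
    MvPolynomial (Fin N) (Polynomial ℤ) :=
  (μ.parts.map (fun k => MvPolynomial.esymm (Fin N) (Polynomial ℤ) k)).prod

/-- `c` gives the expansion of the chromatic quasisymmetric function in the elementary basis:
the identity holds in every finite number of variables. -/
def IsEExp (n : ℕ) (h : ℕ → ℕ) (c : n.Partition → Polynomial ℤ) : Prop :=
  ∀ N, chrom h n N = ∑ μ : n.Partition, MvPolynomial.C (c μ) * eLam μ N

end P066
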