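import Mathlib
import Vale.Agent.P066.Defs
import Vale.Agent.P066.Cone

/-!
# P066: from colourings to the operators
-/

namespace P066

open Finset

section weights

variable {A : Type*} [CommRing A] {N : ℕ} (h : ℕ → ℕ) (q : A) (x : Fin N → A)

/-- the weight of a pair of vertices -/
def ew (u v : ℕ) (a b : Fin N) : A :=
  if Adj h u v then (if a = b then 0 else wq q a b) else 1

/-- the weight of a colouring -/
def Z : (n : ℕ) → (Fin n → Fin N) → A
  | 0, _ => 1
  | (n + 1), f => Z n (fun i => f i.castSucc) *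
      (x (f (Fin.last n)) * ∏ a : Fin n, ew h q a n (f a.castSucc) (f (Fin.last n)))

theorem prod_ew {n : ℕ} (P E L : Fin n → Prop) [DecidablePred P] [DecidablePred E]
    [DecidablePred L] :
    ∏ a : Fin n, (if P a then (if E a then 0 else (if L a then q else 1)) else 1) =
      if (∀ a, P a → ¬ E a) then q ^ (univ.filter (fun a => P a ∧ L a)).card else 0 := by
  by_cases hh : ∀ a, P a → ¬ E a
  · rw [if_pos hh]
    have : ∀ a, (if P a then (if E a then 0 else (if L a then q else 1)) else 1) =
        if P a ∧ L a then q else 1 := by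
      intro a
      by_cases h1 : P a
      · by_cases h2 : L a
        · simp [h1, h2, hh a h1]
        · simp [h1, h2, hh a h1]
      · simp [h1]
    simp only [this]
    rw [Finset.prod_ite]
    simp
  · rw [if_neg hh]
    simp only [not_forall, not_not] at hh
    obtain ⟨a, h1, h2⟩ := hh
    exact Finset.prod_eq_zero (mem_univ a) (by simp [h1, h2])

theorem isProper_succ {n : ℕ} (f : Fin (n + 1) → Fin N) : IsProper h f ↔
    IsProper h (fun i : Fin n => f i.castSucc) ∧
      ∀ a : Fin n, Adj h a n → ¬ (f a.castSucc = f (Fin.last n)) := by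
  constructor
  · intro hf
    refine ⟨fun a b hab => hf a.castSucc b.castSucc (by simpa using hab), fun a ha => ?_⟩
    exact hf a.castSucc (Fin.last n) (by simpa using ha)
  · rintro ⟨h1, h2⟩ a b hab
    have hlt : (a : ℕ) < b := hab.1
    have ha : (a : ℕ) < n := by have := b.2; omega
    by_cases hb : (b : ℕ) < n
    · have := h1 ⟨a, ha⟩ ⟨b, hb⟩ hab
      simpa using this
    · have hbn : b = Fin.last n := by
        apply Fin.ext; have := b.2; simp; omega
      subst hbn
      have := h2 ⟨a, ha⟩ (by simpa using hab)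
      simpa using this

theorem asc_succ {n : ℕ} (f : Fin (n + 1) → Fin N) : asc h f =
    asc h (fun i : Fin n => f i.castSucc) +
      (univ.filter (fun a : Fin n => Adj h a n ∧ f a.castSucc < f (Fin.last n))).card := by
  unfold asc
  simp only [Finset.card_filter, Fintype.sum_prod_type, Fin.sum_univ_castSucc]
  have h1 : ∀ b : Fin n, ¬ Adj h n b := fun b hb => by
    have := hb.1; have := b.2; omega
  have h2 : ¬ Adj h n n := fun hb => by have := hb.1; omega
  simp only [Fin.val_castSucc, Fin.val_last, h1, h2, false_and, if_false,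
    Finset.sum_const_zero, add_zero, Finset.sum_add_distrib]

theorem Z_eq (n : ℕ) (f : Fin n → Fin N) : Z h q x n f =
    if IsProper h f then q ^ asc h f * ∏ a, x (f a) else 0 := by
  induction n with
  | zero =>
    have : IsProper h f := fun a => a.elim0
    have h2 : asc h f = 0 := by
      unfold asc
      rw [Finset.card_eq_zero, Finset.filter_eq_empty_iff]
      exact fun p => p.1.elim0
    simp [Z, this, h2]
  | succ n ih =>
    have h1 := prod_ew q (fun a : Fin n => Adj h a n)
      (fun a => f a.castSucc = f (Fin.last n)) (fun a => f a.castSucc < f (Fin.last n))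
    have h2 : ∏ a : Fin n, ew h q a n (f a.castSucc) (f (Fin.last n)) =
        ∏ a : Fin n, (if Adj h a n then (if f a.castSucc = f (Fin.last n) then 0 else
          (if f a.castSucc < f (Fin.last n) then q else 1)) else 1) := by
      refine Finset.prod_congr rfl (fun a _ => ?_)
      unfold ew wq
      simp only [← Fin.lt_def]
    simp only [Z]
    rw [ih, h2, h1, asc_succ h f, Fin.prod_univ_castSucc]
    by_cases c1 : IsProper h (fun i : Fin n => f i.castSucc)
    · by_cases c2 : ∀ a : Fin n, Adj h a n → ¬ (f a.castSucc = f (Fin.last n))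
      · have c3 := (isProper_succ h f).2 ⟨c1, c2⟩
        rw [if_pos c1, if_pos c2, if_pos c3, pow_add]
        ring
      · have c3 : ¬ IsProper h f := fun hf => c2 ((isProper_succ h f).1 hf).2
        rw [if_neg c2, if_neg c3]; ring
    · have c3 : ¬ IsProper h f := fun hf => c1 ((isProper_succ h f).1 hf).1
      rw [if_neg c1, if_neg c3]; ring

theorem Z_snoc (n : ℕ) (f : Fin n → Fin N) (c : Fin N) :
    Z h q x (n + 1) (Fin.snoc f c : Fin (n + 1) → Fin N) =
      Z h q x n f * (x c * ∏ a : Fin n, ew h q a n (f a) c) := by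
  simp only [Z, Fin.snoc_castSucc, Fin.snoc_last]

theorem sum_snoc {n : ℕ} (g : (Fin (n + 1) → Fin N) → A) :
    ∑ f : Fin (n + 1) → Fin N, g f =
      ∑ c : Fin N, ∑ f : Fin n → Fin N, g (Fin.snoc f c : Fin (n + 1) → Fin N) := by
  rw [← Fintype.sum_prod_type (f := fun p : Fin N × (Fin n → Fin N) =>
    g (Fin.snoc p.2 p.1 : Fin (n + 1) → Fin N))]
  exact (Fintype.sum_equiv (Fin.snocEquiv (fun _ : Fin (n + 1) => Fin N)) _ _
    (fun p => rfl)).symm

/-- no active vertex -/
def P0 (n : ℕ) : A := ∑ f : Fin n → Fin N, Z h q x n f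

/-- the last vertex active -/
def P1 (n : ℕ) (c : Fin N) : A :=
  ∑ f : Fin n → Fin N, Z h q x (n + 1) (Fin.snoc f c : Fin (n + 1) → Fin N)

/-- the last two vertices active -/
def P2 (n : ℕ) (a b : Fin N) : A :=
  ∑ f : Fin n → Fin N, Z h q x (n + 2)
    (Fin.snoc (Fin.snoc f a : Fin (n + 1) → Fin N) b : Fin (n + 2) → Fin N)

theorem P0_succ (n : ℕ) : P0 h q x (n + 1) = ∑ c, P1 h q x n c := sum_snoc _

theorem P1_succ (n : ℕ) (b : Fin N) : P1 h q x (n + 1) b = ∑ a, P2 h q x n a b :=
  sum_snoc (fun f => Z h q x (n + 2) (Fin.snoc f b : Fin (n + 2) → Fin N))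

theorem P1_isolated (n : ℕ) (hn : ∀ a, a < n → ¬ Adj h a n) :
    P1 h q x n = P0 h q x n • x := by
  ext c
  simp only [P1, P0, Z_snoc, Pi.smul_apply, smul_eq_mul, Finset.sum_mul]
  refine Finset.sum_congr rfl (fun f _ => ?_)
  have : ∏ a : Fin n, ew h q a n (f a) c = 1 :=
    Finset.prod_eq_one (fun a _ => by unfold ew; rw [if_neg (hn a a.2)])
  rw [this]; ring

theorem P2_one (n : ℕ) (hn : ∀ a, a < n → ¬ Adj h a (n + 1)) (h1 : Adj h n (n + 1)) :
    P2 h q x n = Dp q x (P1 h q x n) := by
  ext a b
  simp only [P2, P1, Dp, LinearMap.coe_mk, AddHom.coe_mk]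
  have h2 : ∀ f : Fin n → Fin N, Z h q x (n + 2)
      (Fin.snoc (Fin.snoc f a : Fin (n + 1) → Fin N) b : Fin (n + 2) → Fin N) =
      Z h q x (n + 1) (Fin.snoc f a : Fin (n + 1) → Fin N) *
        (x b * (if a = b then 0 else wq q a b)) := by
    intro f
    rw [Z_snoc, Fin.prod_univ_castSucc]
    have : ∏ i : Fin n, ew h q (i.castSucc : Fin (n + 1)) (n + 1)
        ((Fin.snoc f a : Fin (n + 1) → Fin N) i.castSucc) b = 1 :=
      Finset.prod_eq_one (fun i _ => if_neg (hn i i.2))
    rw [this]
    simp only [ew, Fin.val_last, Fin.snoc_last, h1, if_true, one_mul]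
  simp only [h2]
  rw [← Finset.sum_mul]
  split_ifs with h3
  · ring
  · ring

theorem P2_diag (n : ℕ) (h1 : Adj h n (n + 1)) (a : Fin N) : P2 h q x n a a = 0 := by
  unfold P2
  refine Finset.sum_eq_zero (fun f _ => ?_)
  rw [Z_snoc, Fin.prod_univ_castSucc]
  simp [ew, h1]

theorem B_apply (F : Fin N → Fin N → A) (b c : Fin N) :
    (R2 q x F + Dp q x (Dm F)) b c = if b = c then 0 else x c * wq q b c *
      ∑ a, (if a = b then 0 else (if a = c then 0 else wq q a c) * F a b) := by
  simp only [R2, Dp, Dm, Pi.add_apply, LinearMap.coe_mk, AddHom.coe_mk]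
  by_cases hbc : b = c
  · simp [hbc]
  · simp only [hbc, if_false]
    have : ∑ a, (if a = b then 0 else (if a = c then 0 else wq q a c) * F a b) =
        (∑ a : Fin N, if a = b then 0 else kap q a c * F a b) +
          ∑ a, (if a = b then 0 else F a b) := by
      rw [← Finset.sum_add_distrib]
      refine Finset.sum_congr rfl (fun a _ => ?_)
      by_cases hab : a = b
      · simp [hab]
      · simp only [hab, if_false]
        unfold kap wq
        simp only [← Fin.lt_def, ← Fin.ext_iff]
        rcases lt_trichotomy a c with h1 | h1 | h1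
        · simp only [h1, h1.ne, if_true, if_false]; ring
        · subst h1; simp
        · simp only [h1.not_gt, h1.ne', if_false]; ring
    rw [this]; ring

theorem P2_two (m : ℕ) (hm : ∀ a, a < m → ¬ Adj h a (m + 2)) (h0 : Adj h m (m + 2))
    (h1 : Adj h (m + 1) (m + 2)) (h2 : Adj h m (m + 1)) :
    P2 h q x (m + 1) = R2 q x (P2 h q x m) + Dp q x (Dm (P2 h q x m)) := by
  ext b c
  rw [B_apply]
  unfold P2
  rw [sum_snoc]
  have h3 : ∀ (a : Fin N) (f : Fin m → Fin N), Z h q x (m + 1 + 2)
      (Fin.snoc (Fin.snoc (Fin.snoc f a : Fin (m + 1) → Fin N) b : Fin (m + 2) → Fin N) c :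
        Fin (m + 3) → Fin N) =
      Z h q x (m + 2) (Fin.snoc (Fin.snoc f a : Fin (m + 1) → Fin N) b : Fin (m + 2) → Fin N) *
        (x c * ((if a = c then 0 else wq q a c) * (if b = c then 0 else wq q b c))) := by
    intro a f
    rw [Z_snoc h q x (m + 2), Fin.prod_univ_castSucc, Fin.prod_univ_castSucc]
    have : ∏ i : Fin m, ew h q ((i.castSucc.castSucc : Fin (m + 2)) : ℕ) (m + 2)
        ((Fin.snoc (Fin.snoc f a : Fin (m + 1) → Fin N) b : Fin (m + 2) → Fin N)
          i.castSucc.castSucc) c = 1 :=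
      Finset.prod_eq_one (fun i _ => if_neg (hm i i.2))
    rw [this]
    simp only [ew, Fin.val_last, Fin.snoc_last, Fin.snoc_castSucc, Fin.val_castSucc, h0, h1,
      if_true, one_mul]
  simp only [h3]
  by_cases hbc : b = c
  · simp [hbc]
  · simp only [hbc, if_false, ← Finset.sum_mul]
    rw [Finset.mul_sum]
    refine Finset.sum_congr rfl (fun a _ => ?_)
    by_cases hab : a = b
    · subst hab
      have := P2_diag h q x m h2 a
      unfold P2 at this
      rw [this]; simp
    · simp only [hab, if_false]; ring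

end weights

/-! ### the main induction -/

theorem adj_left {h : ℕ → ℕ} (mono : ∀ i j, 1 ≤ i → i ≤ j → h i ≤ h j) {a b c : ℕ}
    (hab : a ≤ b) (hbc : b < c) (hac : Adj h a c) : Adj h b c :=
  ⟨hbc, hac.2.trans (mono _ _ (by omega) (by omega))⟩

theorem adj_right {h : ℕ → ℕ} {a b c : ℕ}
    (hab : a < b) (hbc : b ≤ c) (hac : Adj h a c) : Adj h a b :=
  ⟨hab, by have := hac.2; omega⟩

theorem main_induction (h : ℕ → ℕ) (mono : ∀ i j, 1 ≤ i → i ≤ j → h i ≤ h j)
    (bw : ∀ i, 1 ≤ i → h i ≤ i + 2) (n : ℕ) :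
    ((fun N => P0 h (qN N) (xN N) n) ∈ Kg Gen0 n) ∧
    ((fun N => P1 h (qN N) (xN N) n) ∈ Kg Gen1 (n + 1)) ∧
    (Adj h n (n + 1) → (fun N => P2 h (qN N) (xN N) n) ∈ Kg Gen2 (n + 2)) := by
  induction n with
  | zero =>
    have h0 : (fun N => P0 h (qN N) (xN N) 0) ∈ Kg Gen0 0 := by
      have : (fun N => P0 h (qN N) (xN N) 0) = fun _ => 1 := by
        ext1 N; simp [P0, Z]
      rw [this]; exact pos_one
    have h1 : (fun N => P1 h (qN N) (xN N) 0) ∈ Kg Gen1 (0 + 1) := by
      have : (fun N => P1 h (qN N) (xN N) 0) = fun N => P0 h (qN N) (xN N) 0 • xN N := by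
        ext1 N; exact P1_isolated h _ _ 0 (fun a ha => absurd ha (Nat.not_lt_zero a))
      rw [this]; exact step_D0 h0
    refine ⟨h0, h1, fun hadj => ?_⟩
    have : (fun N => P2 h (qN N) (xN N) 0) =
        fun N => Dp (qN N) (xN N) (P1 h (qN N) (xN N) 0) := by
      ext1 N; exact P2_one h _ _ 0 (fun a ha => absurd ha (Nat.not_lt_zero a)) hadj
    rw [this]; exact step_Dp h1
  | succ n ih =>
    obtain ⟨ih0, ih1, ih2⟩ := ih
    have h0 : (fun N => P0 h (qN N) (xN N) (n + 1)) ∈ Kg Gen0 (n + 1) := by
      have : (fun N => P0 h (qN N) (xN N) (n + 1)) =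
          fun N => S1 (P1 h (qN N) (xN N) n) := by
        ext1 N; exact P0_succ h _ _ n
      rw [this]; exact step_S1 ih1
    have h1 : (fun N => P1 h (qN N) (xN N) (n + 1)) ∈ Kg Gen1 (n + 1 + 1) := by
      by_cases hadj : Adj h n (n + 1)
      · have : (fun N => P1 h (qN N) (xN N) (n + 1)) =
            fun N => Dm (P2 h (qN N) (xN N) n) := by
          ext1 N; ext1 b
          rw [P1_succ]
          simp only [Dm, LinearMap.coe_mk, AddHom.coe_mk]
          refine Finset.sum_congr rfl (fun a _ => ?_)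
          by_cases hab : a = b
          · subst hab; simp [P2_diag h _ _ n hadj]
          · simp [hab]
        rw [this]; exact step_Dm (ih2 hadj)
      · have : (fun N => P1 h (qN N) (xN N) (n + 1)) =
            fun N => P0 h (qN N) (xN N) (n + 1) • xN N := by
          ext1 N
          refine P1_isolated h _ _ (n + 1) (fun a ha hc => hadj ?_)
          exact adj_left mono (by omega) (by omega) hc
        rw [this]; exact step_D0 h0
    refine ⟨h0, h1, fun hadj => ?_⟩
    by_cases h02 : Adj h n (n + 2)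
    · have h3 : Adj h n (n + 1) := adj_right (by omega) (by omega) h02
      have : (fun N => P2 h (qN N) (xN N) (n + 1)) = fun N =>
          R2 (qN N) (xN N) (P2 h (qN N) (xN N) n) +
            Dp (qN N) (xN N) (Dm (P2 h (qN N) (xN N) n)) := by
        ext1 N
        refine P2_two h _ _ n (fun a ha hc => ?_) h02 hadj h3
        have := hc.2
        have := bw (a + 1) (by omega)
        omega
      rw [this]; exact step_B (ih2 h3)
    · have : (fun N => P2 h (qN N) (xN N) (n + 1)) =
          fun N => Dp (qN N) (xN N) (P1 h (qN N) (xN N) (n + 1)) := by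
        ext1 N
        refine P2_one h _ _ (n + 1) (fun a ha hc => h02 ?_) hadj
        exact adj_left mono (by omega) (by omega) hc
      rw [this]; exact step_Dp h1

end P066
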