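import Mathlib
import Vale.Agent.P066.Defs
import Vale.Agent.P066.Cone

/-!
# P066: from cones to expansions, and uniqueness of the expansion
-/

namespace P066

open Finset

theorem ee_eq (N k : ℕ) : ee (xN N) k = MvPolynomial.esymm (Fin N) (Polynomial ℤ) k := rfl

theorem mon_filter (s : Multiset ℕ) (N : ℕ) : mon (s.filter (· ≠ 0)) N = mon s N := by
  induction s using Multiset.induction_on with
  | empty => simp [mon]
  | cons k s ih =>
    by_cases hk : k = 0
    · subst hk
      rw [Multiset.filter_cons_of_neg _ (by simp), ih]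
      unfold mon
      rw [Multiset.map_cons, Multiset.prod_cons, ee_zero, one_mul]
    · rw [Multiset.filter_cons_of_pos (p := fun k => k ≠ 0) _ hk]
      unfold mon at *
      rw [Multiset.map_cons, Multiset.prod_cons, Multiset.map_cons, Multiset.prod_cons, ih]

/-- positive families have an expansion with nonnegative coefficients -/
theorem exists_expansion {n : ℕ} {F : ∀ N, AN N} (hF : F ∈ Kg Gen0 n) :
    ∃ c : n.Partition → Polynomial ℤ, (∀ μ k, 0 ≤ (c μ).coeff k) ∧
      ∀ N, F N = ∑ μ : n.Partition, MvPolynomial.C (c μ) * eLam μ N := by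
  classical
  induction hF using AddSubmonoid.closure_induction with
  | mem F h =>
    obtain ⟨i, s, d, G, ⟨hd0, hG⟩, hd, rfl⟩ := h
    have hs : s.sum = n := by omega
    refine ⟨fun μ => if μ = Nat.Partition.ofSums n s hs then Polynomial.X ^ i else 0,
      fun μ k => ?_, fun N => ?_⟩
    · dsimp only
      split_ifs
      · rw [Polynomial.coeff_X_pow]; split_ifs <;> simp
      · simp
    · rw [Finset.sum_eq_single (Nat.Partition.ofSums n s hs)]
      · subst hG
        simp only [if_true]
        have h1 : eLam (Nat.Partition.ofSums n s hs) N = mon s N := by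
          rw [← mon_filter s N]; rfl
        rw [h1]
        simp [qN]
      · intro μ _ hμ
        simp [hμ]
      · intro hc; exact absurd (mem_univ _) hc
  | zero =>
    exact ⟨fun _ => 0, by simp, by intro N; simp⟩
  | add F G _ _ h1 h2 =>
    obtain ⟨c1, p1, e1⟩ := h1
    obtain ⟨c2, p2, e2⟩ := h2
    refine ⟨fun μ => c1 μ + c2 μ, fun μ k => ?_, fun N => ?_⟩
    · rw [Polynomial.coeff_add]; exact add_nonneg (p1 μ k) (p2 μ k)
    · rw [Pi.add_apply, e1 N, e2 N, ← Finset.sum_add_distrib]
      refine Finset.sum_congr rfl (fun μ _ => ?_)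
      rw [map_add, add_mul]

/-- exponents of the parts `1, ..., r` -/
noncomputable def expo {n : ℕ} (r : ℕ) (μ : n.Partition) : Fin r →₀ ℕ :=
  Finsupp.equivFunOnFinite.symm (fun i => μ.parts.count ((i : ℕ) + 1))

theorem expo_inj {n r : ℕ} {μ ν : n.Partition} (hμ : ∀ k ∈ μ.parts, k ≤ r)
    (hν : ∀ k ∈ ν.parts, k ≤ r) (h : expo r μ = expo r ν) : μ = ν := by
  apply Nat.Partition.ext
  rw [Multiset.ext]
  intro k
  by_cases hk : 1 ≤ k ∧ k ≤ r
  · have := DFunLike.congr_fun h ⟨k - 1, by omega⟩
    simp only [expo, Finsupp.equivFunOnFinite_symm_apply_apply] at this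
    rwa [show k - 1 + 1 = k by omega] at this
  · have h1 : k ∉ μ.parts := fun hm => hk ⟨μ.parts_pos hm, hμ k hm⟩
    have h2 : k ∉ ν.parts := fun hm => hk ⟨ν.parts_pos hm, hν k hm⟩
    rw [Multiset.count_eq_zero_of_notMem h1, Multiset.count_eq_zero_of_notMem h2]

theorem prod_count {B : Type*} [CommMonoid B] (r : ℕ) (f : ℕ → B) (s : Multiset ℕ)
    (hs : ∀ k ∈ s, 1 ≤ k ∧ k ≤ r) :
    (s.map f).prod = ∏ i : Fin r, f ((i : ℕ) + 1) ^ s.count ((i : ℕ) + 1) := by
  induction s using Multiset.induction_on with
  | empty => simp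
  | cons k s ih =>
    rw [Multiset.map_cons, Multiset.prod_cons, ih (fun k hk => hs k (Multiset.mem_cons_of_mem hk))]
    have hk := hs k (Multiset.mem_cons_self k s)
    simp only [Multiset.count_cons, pow_add, Finset.prod_mul_distrib]
    rw [mul_comm]
    congr 1
    rw [Finset.prod_eq_single (⟨k - 1, by omega⟩ : Fin r)]
    · simp [show k - 1 + 1 = k by omega]
    · intro i _ hi
      have : ¬ ((i : ℕ) + 1 = k) := fun hh => hi (Fin.ext (by simp; omega))
      simp [this]
    · intro hc; exact absurd (mem_univ _) hc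

theorem esymm_big (N k : ℕ) (h : N < k) :
    MvPolynomial.esymm (Fin N) (Polynomial ℤ) k = 0 := by
  unfold MvPolynomial.esymm
  rw [Finset.powersetCard_eq_empty.2 (by simpa using h), Finset.sum_empty]

/-- linear independence of the `e_λ` with parts at most the number of variables -/
theorem indep (n r : ℕ) (c : n.Partition → Polynomial ℤ)
    (h : ∑ μ : n.Partition, MvPolynomial.C (c μ) * eLam μ r = 0) :
    ∀ μ : n.Partition, (∀ k ∈ μ.parts, k ≤ r) → c μ = 0 := by
  classical
  set S := (univ : Finset n.Partition).filter (fun μ => ∀ k ∈ μ.parts, k ≤ r) with hS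
  set p : MvPolynomial (Fin r) (Polynomial ℤ) :=
    ∑ μ ∈ S, MvPolynomial.monomial (expo r μ) (c μ) with hp
  have h1 : (MvPolynomial.esymmAlgHom (Fin r) (Polynomial ℤ) r p).val = 0 := by
    rw [MvPolynomial.esymmAlgHom_apply, hp, map_sum]
    have h2 : ∑ μ ∈ S, MvPolynomial.C (c μ) * eLam μ r = 0 := by
      rw [← h, hS, Finset.sum_filter]
      refine Finset.sum_congr rfl (fun μ _ => ?_)
      split_ifs with h3
      · rfl
      · simp only [not_forall] at h3
        obtain ⟨k, hk, hkr⟩ := h3
        have : eLam μ r = 0 := by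
          unfold eLam
          apply Multiset.prod_eq_zero
          rw [Multiset.mem_map]
          exact ⟨k, hk, esymm_big r k (by omega)⟩
        rw [this, mul_zero]
    rw [← h2]
    refine Finset.sum_congr rfl (fun μ hμ => ?_)
    rw [MvPolynomial.aeval_monomial]
    have hμ' := (Finset.mem_filter.1 hμ).2
    unfold eLam
    rw [prod_count r _ μ.parts (fun k hk => ⟨μ.parts_pos hk, hμ' k hk⟩)]
    rw [Finsupp.prod_fintype _ _ (by simp)]
    rfl
  have h2 : p = 0 := by
    have hinj := MvPolynomial.esymmAlgHom_fin_injective (R := Polynomial ℤ) (le_refl r)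
    apply hinj
    rw [map_zero]
    exact Subtype.ext h1
  intro μ hμ
  have hμS : μ ∈ S := by rw [hS, Finset.mem_filter]; exact ⟨mem_univ _, hμ⟩
  have h3 := congrArg (MvPolynomial.coeff (expo r μ)) h2
  rw [hp, MvPolynomial.coeff_sum, MvPolynomial.coeff_zero, Finset.sum_eq_single μ] at h3
  · simpa using h3
  · intro ν hν hne
    rw [MvPolynomial.coeff_monomial, if_neg]
    intro he
    exact hne (expo_inj (Finset.mem_filter.1 hν).2 hμ he)
  · intro hc; exact absurd hμS hc

theorem uniq {n : ℕ} {h : ℕ → ℕ} {c c' : n.Partition → Polynomial ℤ}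
    (hc : IsEExp n h c) (hc' : IsEExp n h c') : c = c' := by
  funext μ
  have h1 : ∑ μ : n.Partition, MvPolynomial.C (c μ - c' μ) * eLam μ n = 0 := by
    simp only [map_sub, sub_mul, Finset.sum_sub_distrib]
    rw [← hc n, ← hc' n, sub_self]
  have h2 := indep n n (fun μ => c μ - c' μ) h1 μ (fun k hk => by
    rw [← μ.parts_sum]; exact Multiset.single_le_sum (fun _ _ => Nat.zero_le _) k hk)
  exact sub_eq_zero.1 h2

end P066
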